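import Vale.Agent.Lib.P078.Mixed.Block
import Vale.Agent.Lib.P078.Lower

/-!
Minimal projections of a MASA of `B(H)` have rank one; the atomic subspace.
-/

namespace Vale.Agent.Lib.P078

open scoped InnerProductSpace

set_option linter.unusedSectionVars false

variable {H : Type*} [NormedAddCommGroup H] [InnerProductSpace ℂ H] [CompleteSpace H]
variable {A : StarSubalgebra ℂ (H →L[ℂ] H)}

/-- the rank one operator `v ↦ ⟪u, v⟫ u` -/
noncomputable def rk (u : H) : H →L[ℂ] H := (innerSL ℂ u).smulRight u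

lemma rk_apply (u v : H) : rk u v = ⟪u, v⟫_ℂ • u := by
  simp [rk]

lemma rk_self {u : H} (hu : ‖u‖ = 1) : rk u u = u := by
  rw [rk_apply, inner_self_eq_norm_sq_to_K, hu]; simp

lemma projOn_eq_sum_rk {κ : Type*} [Fintype κ] (e : κ → H) : projOn e = ∑ j, rk (e j) := rfl

lemma rk_eq_projOn (u : H) : rk u = projOn (fun _ : Fin 1 => u) := by
  simp [projOn, rk]

lemma rk_isStarProjection {u : H} (hu : ‖u‖ = 1) : IsStarProjection (rk u) := by
  rw [rk_eq_projOn]
  exact projOn_isStarProjection (orthonormal_single hu)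

lemma rk_mul_rk_of_orth {u v : H} (h : ⟪u, v⟫_ℂ = 0) : rk u * rk v = 0 := by
  ext w
  simp [rk_apply, h]

/-- `u` is an atom vector of `A`: a unit vector whose rank one projection lies in `A` -/
def IsAtomVec (A : StarSubalgebra ℂ (H →L[ℂ] H)) (u : H) : Prop := ‖u‖ = 1 ∧ rk u ∈ A

lemma IsAtomVec.apply_eq (hA : IsMASA (fullAlgebra H) A) {u : H} (hu : IsAtomVec A u)
    {a : H →L[ℂ] H} (ha : a ∈ A) : a u = ⟪u, a u⟫_ℂ • u := by
  have h := hA.comm_apply hu.2 ha u
  rw [rk_self hu.1, rk_apply] at h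
  exact h.symm

/-- elements of `A` act as scalars on the range of a minimal projection -/
lemma IsAtomProj.apply_mem (hA : IsMASA (fullAlgebra H) A) {p : H →L[ℂ] H} (hp : IsAtomProj A p)
    {u : H} (hu : p u = u) {a : H →L[ℂ] H} (ha : a ∈ A) : a u ∈ Submodule.span ℂ {u} := by
  have hcl : IsClosed (Submodule.span ℂ {u} : Set H) := Submodule.closed_of_finiteDimensional _
  have hsimple : ∀ s ∈ Submodule.span ℂ (projSet A), s u ∈ Submodule.span ℂ {u} := by
    intro s hs
    induction hs using Submodule.span_induction with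
    | mem e he =>
      obtain ⟨heA, hep⟩ := he
      have h1 : p * (p * e) = p * e := by rw [← mul_assoc, hp.2.1.isIdempotentElem.eq]
      have h2 : e u = (p * e) u := by
        rw [hA.comm hp.1 heA, mul_apply', hu]
      rcases hp.2.2.2 (p * e) (A.mul_mem hp.1 heA) (hp.2.1.mul hep (hA.comm hp.1 heA)) h1
        with h0 | h0
      · rw [h2, h0]; simp
      · rw [h2, h0, hu]; exact Submodule.mem_span_singleton_self u
    | zero => simp
    | add s t _ _ hs ht => rw [add_apply]; exact Submodule.add_mem _ hs ht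
    | smul c s _ hs => rw [smul_apply]; exact Submodule.smul_mem _ _ hs
  have hmem : a u ∈ closure (Submodule.span ℂ {u} : Set H) := by
    rw [Metric.mem_closure_iff]
    intro κ hκ
    obtain ⟨s, hs, hs2⟩ := approx_simple hA ha (κ := κ / (‖u‖ + 1)) (by positivity)
    refine ⟨s u, hsimple s hs, ?_⟩
    rw [dist_eq_norm, ← sub_apply]
    calc ‖(a - s) u‖ ≤ ‖a - s‖ * ‖u‖ := (a - s).le_opNorm u
      _ ≤ κ / (‖u‖ + 1) * ‖u‖ := mul_le_mul_of_nonneg_right hs2.le (norm_nonneg _)
      _ < κ := by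
        rw [div_mul_eq_mul_div, div_lt_iff₀ (by positivity)]
        nlinarith [norm_nonneg u]
  rwa [hcl.closure_eq] at hmem

/-- a unit vector on which `A` acts by scalars is an atom vector -/
lemma isAtomVec_of_scalar (hA : IsMASA (fullAlgebra H) A) {u : H} (hu : ‖u‖ = 1)
    (h : ∀ a ∈ A, a u ∈ Submodule.span ℂ {u}) : IsAtomVec A u := by
  refine ⟨hu, hA.mem_of_commute ?_⟩
  intro a ha
  obtain ⟨c, hc⟩ := Submodule.mem_span_singleton.mp (h a ha)
  obtain ⟨c', hc'⟩ := Submodule.mem_span_singleton.mp (h (star a) (star_mem ha))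
  have huu : ⟪u, u⟫_ℂ = 1 := by rw [inner_self_eq_norm_sq_to_K, hu]; simp
  have hrel : (starRingEnd ℂ) c' = c := by
    have h1 : ⟪(star a) u, u⟫_ℂ = ⟪u, a u⟫_ℂ := by
      rw [ContinuousLinearMap.star_eq_adjoint, ContinuousLinearMap.adjoint_inner_left]
    rw [← hc, ← hc', inner_smul_left, inner_smul_right, huu] at h1
    simpa using h1
  ext v
  simp only [mul_apply', rk_apply, map_smul]
  have h2 : ⟪u, a v⟫_ℂ = ⟪(star a) u, v⟫_ℂ := by
    rw [ContinuousLinearMap.star_eq_adjoint, ContinuousLinearMap.adjoint_inner_left]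
  rw [h2, ← hc, ← hc', inner_smul_left, hrel, smul_smul, mul_comm]

/-- minimal projections of a MASA of `B(H)` have rank one -/
theorem IsAtomProj.exists_vec (hA : IsMASA (fullAlgebra H) A) {p : H →L[ℂ] H}
    (hp : IsAtomProj A p) : ∃ u, IsAtomVec A u ∧ p = rk u := by
  have hex : ∃ v, p v ≠ 0 := by
    by_contra hcon
    push Not at hcon
    exact hp.2.2.1 (by ext v; simp [hcon v])
  obtain ⟨v, hv⟩ := hex
  set u : H := ((‖p v‖⁻¹ : ℝ) : ℂ) • p v with hu
  have hnorm : ‖u‖ = 1 := by
    rw [hu, norm_smul, Complex.norm_real, norm_inv, norm_norm,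
      inv_mul_cancel₀ (norm_ne_zero_iff.mpr hv)]
  have hpu : p u = u := by
    rw [hu, map_smul, proj_apply_apply hp.2.1]
  have hat : IsAtomVec A u := isAtomVec_of_scalar hA hnorm (fun a ha => hp.apply_mem hA hpu ha)
  refine ⟨u, hat, ?_⟩
  have h1 : p * rk u = rk u := by
    ext w
    simp [rk_apply, hpu]
  rcases hp.2.2.2 (rk u) hat.2 (rk_isStarProjection hnorm) h1 with h0 | h0
  · exfalso
    have := rk_self hnorm
    rw [h0] at this
    simp only [zero_apply] at this
    rw [← this] at hnorm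
    simp at hnorm
  · exact h0.symm

/-- conversely the rank one projection of an atom vector is minimal -/
lemma IsAtomVec.isAtomProj (hA : IsMASA (fullAlgebra H) A) {u : H} (hu : IsAtomVec A u) :
    IsAtomProj A (rk u) := by
  refine ⟨hu.2, rk_isStarProjection hu.1, ?_, ?_⟩
  · intro h0
    have := rk_self hu.1
    rw [h0] at this
    simp only [zero_apply] at this
    have h1 := hu.1
    rw [← this] at h1
    simp at h1
  · intro p' hp'A hp' hle
    have h1 := hu.apply_eq hA hp'A
    set c := ⟪u, p' u⟫_ℂ with hc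
    -- `p' = rk u * p'`, so `p' v = ⟪u, p' v⟫ u = ⟪p' u, v⟫ u = conj c ⟪u, v⟫ u`
    have h2 : ∀ v, p' v = ((starRingEnd ℂ) c * ⟪u, v⟫_ℂ) • u := by
      intro v
      have := DFunLike.congr_fun hle v
      rw [mul_apply', rk_apply, ← sa_inner hp'.isSelfAdjoint, h1, inner_smul_left] at this
      exact this.symm
    have huu : ⟪u, u⟫_ℂ = 1 := by rw [inner_self_eq_norm_sq_to_K, hu.1]; simp
    have hu0 : u ≠ 0 := by
      intro h; have := hu.1; rw [h] at this; simp at this
    have h3 : (starRingEnd ℂ) c = c := by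
      have := h2 u
      rw [h1, huu, mul_one] at this
      exact (smul_left_injective ℂ hu0 this).symm
    have h4 : c * c = c := by
      have := proj_apply_apply hp' u
      rw [h1, map_smul, h1, smul_smul] at this
      exact smul_left_injective ℂ hu0 this
    have h5 : c = 0 ∨ c = 1 := by
      have : c * (c - 1) = 0 := by rw [mul_sub, h4]; simp
      rcases mul_eq_zero.mp this with h | h
      · exact Or.inl h
      · exact Or.inr (sub_eq_zero.mp h)
    rcases h5 with h | h
    · left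
      ext v
      rw [h2 v, h3, h]; simp
    · right
      ext v
      rw [h2 v, h3, h, rk_apply]; simp

/-- two atom vectors are orthogonal or proportional -/
lemma IsAtomVec.orth_or (hA : IsMASA (fullAlgebra H) A) {u t : H} (hu : IsAtomVec A u)
    (ht : IsAtomVec A t) : ⟪u, t⟫_ℂ = 0 ∨ t ∈ Submodule.span ℂ {u} := by
  by_cases h0 : ⟪u, t⟫_ℂ = 0
  · exact Or.inl h0
  · right
    have h := hA.comm_apply hu.2 ht.2 t
    rw [rk_self ht.1, rk_apply, map_smul, rk_apply, smul_smul] at h
    -- ⟪u,t⟫ u = (⟪u,t⟫ ⟪t,u⟫) t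
    have h1 : ⟪t, u⟫_ℂ ≠ 0 := by
      intro h2
      apply h0
      rw [← inner_conj_symm, h2]; simp
    have h2 : u = ⟪t, u⟫_ℂ • t := by
      have : ⟪u, t⟫_ℂ • u = ⟪u, t⟫_ℂ • (⟪t, u⟫_ℂ • t) := by rw [h, smul_smul]
      exact smul_right_injective H h0 this
    rw [Submodule.mem_span_singleton]
    refine ⟨(⟪t, u⟫_ℂ)⁻¹, ?_⟩
    have h3 : (⟪t, u⟫_ℂ)⁻¹ • u = (⟪t, u⟫_ℂ)⁻¹ • (⟪t, u⟫_ℂ • t) :=
      congrArg (fun w => (⟪t, u⟫_ℂ)⁻¹ • w) h2
    rw [h3, smul_smul, inv_mul_cancel₀ h1, one_smul]

/-- the atomic subspace -/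
def atomSub (A : StarSubalgebra ℂ (H →L[ℂ] H)) : Submodule ℂ H :=
  (Submodule.span ℂ {u | IsAtomVec A u}).topologicalClosure

instance : (atomSub A).HasOrthogonalProjection := by
  have : CompleteSpace (atomSub A) :=
    (Submodule.isClosed_topologicalClosure _).completeSpace_coe
  infer_instance

lemma IsAtomVec.mem_atomSub {u : H} (hu : IsAtomVec A u) : u ∈ atomSub A :=
  Submodule.le_topologicalClosure _ (Submodule.subset_span hu)

lemma atomSub_invariant (hA : IsMASA (fullAlgebra H) A) :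
    ∀ a ∈ A, ∀ v ∈ atomSub A, a v ∈ atomSub A := by
  intro a ha
  apply closure_invariant
  intro v hv
  induction hv using Submodule.span_induction with
  | mem u hu =>
    rw [IsAtomVec.apply_eq hA hu ha]
    exact Submodule.smul_mem _ _ (Submodule.subset_span hu)
  | zero => simp
  | add s t _ _ hs ht => rw [map_add]; exact Submodule.add_mem _ hs ht
  | smul c s _ hs => rw [map_smul]; exact Submodule.smul_mem _ _ hs

/-- the projection onto the atomic subspace -/
noncomputable def za (A : StarSubalgebra ℂ (H →L[ℂ] H)) : H →L[ℂ] H :=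
  (atomSub A).starProjection

lemma za_mem (hA : IsMASA (fullAlgebra H) A) : za A ∈ A :=
  hA.starProjection_mem _ (atomSub_invariant hA)

lemma za_proj : IsStarProjection (za A) := isStarProjection_starProjection

lemma za_apply_mem (v : H) : za A v ∈ atomSub A := Submodule.starProjection_apply_mem _ v

lemma za_apply_of_mem {v : H} (hv : v ∈ atomSub A) : za A v = v :=
  Submodule.starProjection_eq_self_iff.mpr hv

/-- atom vectors are orthogonal to the diffuse part -/
lemma IsAtomVec.inner_eq_zero {u : H} (hu : IsAtomVec A u) {v : H} (hv : za A v = 0) :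
    ⟪u, v⟫_ℂ = 0 := by
  rw [← za_apply_of_mem hu.mem_atomSub, sa_inner za_proj.isSelfAdjoint, hv, inner_zero_right]

/-- minimal projections kill the diffuse part -/
lemma IsAtomProj.apply_eq_zero (hA : IsMASA (fullAlgebra H) A) {p : H →L[ℂ] H}
    (hp : IsAtomProj A p) {v : H} (hv : za A v = 0) : p v = 0 := by
  obtain ⟨u, hu, rfl⟩ := hp.exists_vec hA
  rw [rk_apply, hu.inner_eq_zero hv, zero_smul]

/-- vectors killed by all minimal projections can be cut into small pieces -/
lemma exists_small_of_atoms_kill (hA : IsMASA (fullAlgebra H) A) {ζ : H}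
    (hk : ∀ p, IsAtomProj A p → p ζ = 0) {η : ℝ} (hη : 0 < η) :
    ∃ (κ : Type) (_ : Fintype κ) (f : κ → H →L[ℂ] H), (∀ l, f l ∈ A) ∧ POU f ∧
      ∀ l, ‖f l ζ‖ ^ 2 ≤ η := by
  obtain ⟨κ, hκ, f, hfA, hfp, hfo, hfsum, hfg⟩ := div_one hA ζ hη
  refine ⟨κ, hκ, f, hfA, ⟨hfp, hfo, hfsum⟩, fun l => ?_⟩
  rcases hfg l with h | h
  · exact h
  · rw [hk _ h]; simpa using hη.le

end Vale.Agent.Lib.P078
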