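import Vale.Agent.Lib.P078.Univ.Assemble

/-!
Block diagonal norm estimate, and the diffuse block of the paving construction.
-/

namespace Vale.Agent.Lib.P078

open scoped InnerProductSpace

set_option linter.unusedSectionVars false

variable {H : Type*} [NormedAddCommGroup H] [InnerProductSpace ℂ H] [CompleteSpace H]

lemma mul_apply' (S T : H →L[ℂ] H) (v : H) : (S * T) v = S (T v) := rfl

lemma inner_proj_proj_eq_zero {e1 e2 : H →L[ℂ] H} (h1 : IsStarProjection e1)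
    (h12 : e1 * e2 = 0) (y z : H) : ⟪e1 y, e2 z⟫_ℂ = 0 := by
  rw [sa_inner h1.isSelfAdjoint, ← mul_apply', h12]
  simp

lemma norm_sq_add_of_orth {e1 e2 : H →L[ℂ] H} (h1 : IsStarProjection e1)
    (h12 : e1 * e2 = 0) (y z : H) : ‖e1 y + e2 z‖ ^ 2 = ‖e1 y‖ ^ 2 + ‖e2 z‖ ^ 2 := by
  have := norm_add_sq_eq_norm_sq_add_norm_sq_of_inner_eq_zero (e1 y) (e2 z)
    (inner_proj_proj_eq_zero h1 h12 y z)
  nlinarith [this]

/-- the norm of a block diagonal operator is at most the maximum of the norms of the blocks -/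
lemma block_norm_le {e1 e2 T1 T2 : H →L[ℂ] H} (h1 : IsStarProjection e1)
    (h2 : IsStarProjection e2) (h12 : e1 * e2 = 0) (hT1 : e1 * T1 * e1 = T1)
    (hT2 : e2 * T2 * e2 = T2) {C : ℝ} (hC : 0 ≤ C) (b1 : ‖T1‖ ≤ C) (b2 : ‖T2‖ ≤ C) :
    ‖T1 + T2‖ ≤ C := by
  apply ContinuousLinearMap.opNorm_le_bound _ hC
  intro v
  have e1' : T1 v = e1 (T1 (e1 v)) := by
    conv_lhs => rw [← hT1]
    rfl
  have e2' : T2 v = e2 (T2 (e2 v)) := by
    conv_lhs => rw [← hT2]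
    rfl
  have hsum : ‖e1 v‖ ^ 2 + ‖e2 v‖ ^ 2 ≤ ‖v‖ ^ 2 := by
    rw [← norm_sq_add_of_orth h1 h12]
    have := proj_norm_apply_le (h1.add h2 h12) v
    simp only [add_apply] at this
    exact pow_le_pow_left₀ (norm_nonneg _) this 2
  have hb1 : ‖e1 (T1 (e1 v))‖ ≤ C * ‖e1 v‖ := by
    calc ‖e1 (T1 (e1 v))‖ ≤ ‖T1 (e1 v)‖ := proj_norm_apply_le h1 _
      _ ≤ ‖T1‖ * ‖e1 v‖ := T1.le_opNorm _
      _ ≤ C * ‖e1 v‖ := mul_le_mul_of_nonneg_right b1 (norm_nonneg _)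
  have hb2 : ‖e2 (T2 (e2 v))‖ ≤ C * ‖e2 v‖ := by
    calc ‖e2 (T2 (e2 v))‖ ≤ ‖T2 (e2 v)‖ := proj_norm_apply_le h2 _
      _ ≤ ‖T2‖ * ‖e2 v‖ := T2.le_opNorm _
      _ ≤ C * ‖e2 v‖ := mul_le_mul_of_nonneg_right b2 (norm_nonneg _)
  have hsq : ‖(T1 + T2) v‖ ^ 2 ≤ (C * ‖v‖) ^ 2 := by
    rw [add_apply, e1', e2', norm_sq_add_of_orth h1 h12]
    calc ‖e1 (T1 (e1 v))‖ ^ 2 + ‖e2 (T2 (e2 v))‖ ^ 2
        ≤ (C * ‖e1 v‖) ^ 2 + (C * ‖e2 v‖) ^ 2 :=
          add_le_add (pow_le_pow_left₀ (norm_nonneg _) hb1 2)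
            (pow_le_pow_left₀ (norm_nonneg _) hb2 2)
      _ = C ^ 2 * (‖e1 v‖ ^ 2 + ‖e2 v‖ ^ 2) := by ring
      _ ≤ C ^ 2 * ‖v‖ ^ 2 := mul_le_mul_of_nonneg_left hsum (by positivity)
      _ = (C * ‖v‖) ^ 2 := by ring
  exact (sq_le_sq₀ (norm_nonneg _) (by positivity)).mp hsq

/-- the diffuse block: paving of the compression to the span of a finely divisible
orthonormal system -/
theorem diffuse_block {S : Set (H →L[ℂ] H)} {A : StarSubalgebra ℂ (H →L[ℂ] H)}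
    (hSA : S ⊆ A) {m : ℕ} {e : Fin m → H} (he : Orthonormal ℂ e)
    (hfine : ∀ η : ℝ, 0 < η → ∃ (L : ℕ) (f : Fin L → H →L[ℂ] H) (π : Fin L → Fin m),
      FineData S e η f π)
    {x : H →L[ℂ] H} (hx : IsSelfAdjoint x) {ε : ℝ} {r : ℕ} (hr : 1 < r * ε) :
    ∃ (p : Fin r → H →L[ℂ] H) (a : H →L[ℂ] H), IsPartition A p ∧ a ∈ A ∧ IsSelfAdjoint a ∧
      ‖a‖ ≤ ‖x‖ ∧ ‖projOn e * (pinching p x - a) * projOn e‖ ≤ ε * ‖x‖ := by
  have hr0 : r ≠ 0 := by
    rintro rfl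
    simp at hr
    linarith
  have : NeZero r := ⟨hr0⟩
  have hrpos : (0 : ℝ) < r := by exact_mod_cast Nat.pos_of_ne_zero hr0
  have hr1 : (1 : ℝ) ≤ r := by exact_mod_cast Nat.one_le_iff_ne_zero.mpr hr0
  set γ : ℝ := ε - 1 / r with hγ
  have hγpos : 0 < γ := by
    rw [hγ, sub_pos, div_lt_iff₀ hrpos]
    linarith
  set η : ℝ := γ ^ 2 / (2 * (m + 1)) with hη
  have hηpos : 0 < η := by positivity
  obtain ⟨L, f, π, hD⟩ := hfine η hηpos
  let W : Fin m → Fin L × Fin L → H := fun k d =>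
    if d.1 = d.2 then 0 else projOn e (f d.1 (x (f d.2 (e k))))
  obtain ⟨c, hc⟩ := exists_good_colouring_family (r := r) W (by intro k l; simp [W])
  have hq : IsStarProjection (projOn e) := projOn_isStarProjection he
  have hq1 : ‖projOn e‖ ≤ 1 := IsStarProjection.norm_le _ hq
  have h01 : 0 ≤ 1 - 1 / (r : ℝ) := by
    rw [sub_nonneg, div_le_one hrpos]; exact hr1
  have h01' : 1 - 1 / (r : ℝ) ≤ 1 := by
    have : 0 < 1 / (r : ℝ) := by positivity
    linarith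
  refine ⟨POU.group f c, ∑ l, (((1 - 1 / (r : ℝ)) * tcoef e f π x l : ℝ) : ℂ) • f l,
    ?_, ?_, ?_, ?_, ?_⟩
  · refine ⟨fun i => ?_, fun i => hD.pou.group_isStarProjection c i, fun i j hij => ?_,
      hD.pou.sum_group c⟩
    · unfold POU.group
      refine sum_mem (fun l _ => ?_)
      split_ifs
      · exact hSA (hD.mem l)
      · exact zero_mem _
    · rw [hD.pou.group_mul_group, if_neg hij]
  · exact sum_mem (fun l _ => A.smul_mem (hSA (hD.mem l)) _)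
  · exact hD.pou.isSelfAdjoint_sum_smul _
  · apply hD.pou.norm_sum_smul_le _ _ (norm_nonneg _)
    intro l
    rw [Complex.norm_real, Real.norm_eq_abs, abs_mul, abs_of_nonneg h01]
    calc (1 - 1 / (r : ℝ)) * |tcoef e f π x l| ≤ 1 * ‖x‖ :=
          mul_le_mul h01' (abs_tcoef_le e f π x l) (abs_nonneg _) zero_le_one
      _ = ‖x‖ := one_mul _
  · have ha : ∑ l, (((1 - 1 / (r : ℝ)) * tcoef e f π x l : ℝ) : ℂ) • f l
        = ((1 - 1 / (r : ℝ) : ℝ) : ℂ) • ∑ l, ((tcoef e f π x l : ℝ) : ℂ) • f l := by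
      rw [Finset.smul_sum]
      refine Finset.sum_congr rfl (fun l _ => ?_)
      rw [smul_smul, ← Complex.ofReal_mul]
    have key : projOn e * (pinching (POU.group f c) x
          - ∑ l, (((1 - 1 / (r : ℝ)) * tcoef e f π x l : ℝ) : ℂ) • f l) * projOn e
        = ((1 / (r : ℝ) : ℝ) : ℂ) • (projOn e * x * projOn e)
          + (projOn e * fluct f x c) * projOn e := by
      rw [ha, pinching_decomp hD.pou]
      have h := hD.compress_diag hx
      simp only [mul_add, add_mul, mul_sub, sub_mul, mul_smul_comm, smul_mul_assoc]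
      rw [h]
      abel
    rw [key]
    have hfl : ∀ k, (projOn e * fluct f x c) (e k) = ∑ d, ((chi c d : ℝ) : ℂ) • W k d := by
      intro k
      unfold fluct
      simp only [mul_apply_eq_comp, sum_apply, map_sum, smul_apply, map_smul]
      refine Finset.sum_congr rfl (fun d _ => ?_)
      congr 1
      simp only [W]
      split_ifs
      · simp
      · simp [mul_apply_eq_comp]
    have hsum : ∑ k, ‖(projOn e * fluct f x c) (e k)‖ ^ 2 ≤ (γ * ‖x‖) ^ 2 := by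
      simp only [hfl]
      calc ∑ k, ‖∑ d, ((chi c d : ℝ) : ℂ) • W k d‖ ^ 2 ≤ 2 * ∑ k, ∑ d, ‖W k d‖ ^ 2 := hc
        _ ≤ 2 * ∑ _k : Fin m, η * ‖x‖ ^ 2 := by
            apply mul_le_mul_of_nonneg_left _ (by norm_num)
            exact Finset.sum_le_sum (fun k _ => hD.sum_W_le he hηpos.le x k)
        _ = (γ ^ 2 * ‖x‖ ^ 2) * (m / (m + 1)) := by
            simp only [Finset.sum_const, Finset.card_univ, Fintype.card_fin, nsmul_eq_mul, hη]
            field_simp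
        _ ≤ (γ ^ 2 * ‖x‖ ^ 2) * 1 := by
            apply mul_le_mul_of_nonneg_left _ (by positivity)
            rw [div_le_one (by positivity)]
            linarith
        _ = (γ * ‖x‖) ^ 2 := by ring
    have h2 : ‖(projOn e * fluct f x c) * projOn e‖ ≤ γ * ‖x‖ := by
      refine (norm_comp_projOn_le he _).trans ?_
      rw [← Real.sqrt_sq (by positivity : 0 ≤ γ * ‖x‖)]
      exact Real.sqrt_le_sqrt hsum
    have h1 : ‖((1 / (r : ℝ) : ℝ) : ℂ) • (projOn e * x * projOn e)‖ ≤ 1 / (r : ℝ) * ‖x‖ := by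
      rw [norm_smul, Complex.norm_real, Real.norm_eq_abs, abs_of_pos (by positivity)]
      apply mul_le_mul_of_nonneg_left _ (by positivity)
      calc ‖projOn e * x * projOn e‖ ≤ ‖projOn e‖ * ‖x‖ * ‖projOn e‖ :=
            (norm_mul_le _ _).trans (mul_le_mul_of_nonneg_right (norm_mul_le _ _) (norm_nonneg _))
        _ ≤ 1 * ‖x‖ * 1 := by
            apply mul_le_mul _ hq1 (norm_nonneg _) (by positivity)
            exact mul_le_mul_of_nonneg_right hq1 (norm_nonneg _)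
        _ = ‖x‖ := by ring
    calc ‖((1 / (r : ℝ) : ℝ) : ℂ) • (projOn e * x * projOn e)
          + (projOn e * fluct f x c) * projOn e‖
        ≤ 1 / (r : ℝ) * ‖x‖ + γ * ‖x‖ := (norm_add_le _ _).trans (add_le_add h1 h2)
      _ = ε * ‖x‖ := by rw [hγ]; ring

end Vale.Agent.Lib.P078
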