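import Mathlib

namespace Vale.Agent.Lib.P078

/-- the operator norm of a complex `k × k` matrix acting on the Euclidean space `ℂ^k` -/
noncomputable def opn {k : ℕ} (X : Matrix (Fin k) (Fin k) ℂ) : ℝ :=
  ‖Matrix.toEuclideanCLM (n := Fin k) (𝕜 := ℂ) X‖

/-- Finite dimensional paving (over the diagonal of `M_k(ℂ)`): every Hermitian `k × k` matrix `X`
admits a colouring `c` of its indices by `r` colours and a real diagonal matrix `d`, bounded by
`‖X‖`, such that the pinching of `X` along `c` minus `d` has operator norm at most `ε ‖X‖`. -/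
def MatrixPavable (k : ℕ) (ε : ℝ) (r : ℕ) : Prop :=
  ∀ X : Matrix (Fin k) (Fin k) ℂ, X.IsHermitian →
    ∃ (c : Fin k → Fin r) (d : Fin k → ℝ), (∀ i, |d i| ≤ opn X) ∧
      opn (Matrix.of (fun i j => if c i = c j then X i j else 0)
        - Matrix.diagonal (fun i => ((d i : ℝ) : ℂ))) ≤ ε * opn X

/-- The finite dimensional paving number: the least `r ≥ 1` such that Hermitian matrices of every
size are `(ε, r)` pavable, and `⊤` if there is none. -/
noncomputable def matrixPavingNumber (ε : ℝ) : ℕ∞ :=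
  sInf {n : ℕ∞ | ∃ r : ℕ, 1 ≤ r ∧ (r : ℕ∞) = n ∧ ∀ k, MatrixPavable k ε r}

end Vale.Agent.Lib.P078
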