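import Vale.Agent.Lib.P078.Mixed.Struct
import Vale.Agent.Lib.P078.Mixed.MDefs

/-!
Matrices relative to an orthonormal system.
-/

namespace Vale.Agent.Lib.P078

open scoped InnerProductSpace
open Matrix

set_option linter.unusedSectionVars false

variable {H : Type*} [NormedAddCommGroup H] [InnerProductSpace ℂ H] [CompleteSpace H]
variable {k : ℕ}

noncomputable def Vmap (u : Fin k → H) : EuclideanSpace ℂ (Fin k) →L[ℂ] H :=
  ∑ i, (EuclideanSpace.proj i : EuclideanSpace ℂ (Fin k) →L[ℂ] ℂ).smulRight (u i)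

lemma Vmap_apply (u : Fin k → H) (w : EuclideanSpace ℂ (Fin k)) : Vmap u w = ∑ i, w i • u i := by
  simp [Vmap]

noncomputable def Wmap (u : Fin k → H) : H →L[ℂ] EuclideanSpace ℂ (Fin k) :=
  ∑ i, (innerSL ℂ (u i)).smulRight (EuclideanSpace.single i (1 : ℂ))

lemma Wmap_apply (u : Fin k → H) (v : H) (i : Fin k) : Wmap u v i = ⟪u i, v⟫_ℂ := by
  simp [Wmap, Pi.single_apply]

lemma WV {u : Fin k → H} (hu : Orthonormal ℂ u) (w : EuclideanSpace ℂ (Fin k)) :
    Wmap u (Vmap u w) = w := by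
  ext i
  rw [Wmap_apply, Vmap_apply, inner_sum]
  simp [inner_smul_right, orthonormal_iff_ite.mp hu]

lemma VW (u : Fin k → H) (v : H) : Vmap u (Wmap u v) = projOn u v := by
  rw [Vmap_apply, projOn_apply]
  simp [Wmap_apply]

lemma norm_Wmap_apply_le {u : Fin k → H} (hu : Orthonormal ℂ u) (v : H) : ‖Wmap u v‖ ≤ ‖v‖ := by
  have h : ‖Wmap u v‖ ^ 2 ≤ ‖v‖ ^ 2 := by
    rw [EuclideanSpace.norm_sq_eq]
    simp only [Wmap_apply]
    exact hu.sum_inner_products_le v
  exact (sq_le_sq₀ (norm_nonneg _) (norm_nonneg _)).mp h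

lemma norm_Vmap_apply {u : Fin k → H} (hu : Orthonormal ℂ u) (w : EuclideanSpace ℂ (Fin k)) :
    ‖Vmap u w‖ = ‖w‖ := by
  have h : ‖Vmap u w‖ ^ 2 = ‖w‖ ^ 2 := by
    rw [EuclideanSpace.norm_sq_eq, Vmap_apply, ← inner_self_eq_norm_sq (𝕜 := ℂ), hu.inner_sum]
    simp [Complex.conj_mul', ← Complex.ofReal_pow]
  exact (sq_eq_sq₀ (norm_nonneg _) (norm_nonneg _)).mp h

lemma inner_Vmap (u : Fin k → H) (w : EuclideanSpace ℂ (Fin k)) (v : H) :
    ⟪Vmap u w, v⟫_ℂ = ⟪w, Wmap u v⟫_ℂ := by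
  rw [Vmap_apply, sum_inner, PiLp.inner_apply]
  simp [Wmap_apply, inner_smul_left, mul_comm]

lemma inner_Wmap (u : Fin k → H) (w : EuclideanSpace ℂ (Fin k)) (v : H) :
    ⟪Wmap u v, w⟫_ℂ = ⟪v, Vmap u w⟫_ℂ := by
  rw [← inner_conj_symm, ← inner_Vmap, inner_conj_symm]

/-- the operator on `H` with matrix `M` relative to `u` -/
noncomputable def Phi (u : Fin k → H) (M : Matrix (Fin k) (Fin k) ℂ) : H →L[ℂ] H :=
  Vmap u ∘L (toEuclideanCLM (n := Fin k) (𝕜 := ℂ) M) ∘L Wmap u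

lemma Phi_apply (u : Fin k → H) (M : Matrix (Fin k) (Fin k) ℂ) (v : H) :
    Phi u M v = Vmap u (toEuclideanCLM (n := Fin k) (𝕜 := ℂ) M (Wmap u v)) := rfl

/-- the matrix of an operator relative to `u` -/
noncomputable def mat (u : Fin k → H) (x : H →L[ℂ] H) : Matrix (Fin k) (Fin k) ℂ :=
  Matrix.of fun i j => ⟪u i, x (u j)⟫_ℂ

lemma toCLM_mat (u : Fin k → H) (x : H →L[ℂ] H) (w : EuclideanSpace ℂ (Fin k)) :
    toEuclideanCLM (n := Fin k) (𝕜 := ℂ) (mat u x) w = Wmap u (x (Vmap u w)) := by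
  ext i
  rw [Wmap_apply, Vmap_apply, map_sum, inner_sum]
  simp [ofLp_toEuclideanCLM, Matrix.mulVec, dotProduct, mat, inner_smul_right, mul_comm]

lemma toCLM_mul_apply (M N : Matrix (Fin k) (Fin k) ℂ) (w : EuclideanSpace ℂ (Fin k)) :
    toEuclideanCLM (n := Fin k) (𝕜 := ℂ) (M * N) w
      = toEuclideanCLM (n := Fin k) (𝕜 := ℂ) M (toEuclideanCLM (n := Fin k) (𝕜 := ℂ) N w) := by
  rw [map_mul]; rfl

lemma Phi_mul {u : Fin k → H} (hu : Orthonormal ℂ u) (M N : Matrix (Fin k) (Fin k) ℂ) :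
    Phi u M * Phi u N = Phi u (M * N) := by
  ext v
  simp only [mul_apply', Phi_apply, WV hu, toCLM_mul_apply]

lemma Phi_sandwich {u : Fin k → H} (M N : Matrix (Fin k) (Fin k) ℂ) (x : H →L[ℂ] H) :
    Phi u M * x * Phi u N = Phi u (M * mat u x * N) := by
  ext v
  simp only [mul_apply', Phi_apply, toCLM_mul_apply, toCLM_mat]

lemma Phi_one (u : Fin k → H) : Phi u 1 = projOn u := by
  ext v
  simp [Phi_apply, VW]

lemma Phi_zero (u : Fin k → H) : Phi u 0 = 0 := by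
  ext v
  simp [Phi_apply]

lemma Phi_sub (u : Fin k → H) (M N : Matrix (Fin k) (Fin k) ℂ) :
    Phi u (M - N) = Phi u M - Phi u N := by
  ext v
  simp [Phi_apply]

lemma Phi_sum (u : Fin k → H) {ι : Type*} (s : Finset ι) (M : ι → Matrix (Fin k) (Fin k) ℂ) :
    Phi u (∑ i ∈ s, M i) = ∑ i ∈ s, Phi u (M i) := by
  ext v
  simp [Phi_apply]

lemma Phi_diag (u : Fin k → H) (t : Fin k → ℂ) :
    Phi u (diagonal t) = ∑ i, t i • rk (u i) := by
  ext v
  simp only [Phi_apply, Vmap_apply, _root_.sum_apply, _root_.smul_apply, rk_apply]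
  refine Finset.sum_congr rfl (fun i _ => ?_)
  rw [smul_smul]
  congr 1
  simp [ofLp_toEuclideanCLM, mulVec_diagonal, Wmap_apply]

lemma Phi_isSelfAdjoint (u : Fin k → H) {M : Matrix (Fin k) (Fin k) ℂ} (hM : M.IsHermitian) :
    IsSelfAdjoint (Phi u M) := by
  have hsa : IsSelfAdjoint (toEuclideanCLM (n := Fin k) (𝕜 := ℂ) M) := by
    rw [IsSelfAdjoint, ← map_star, star_eq_conjTranspose, hM.eq]
  rw [ContinuousLinearMap.isSelfAdjoint_iff']
  apply ContinuousLinearMap.ext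
  intro v
  apply ext_inner_right ℂ
  intro v'
  rw [ContinuousLinearMap.adjoint_inner_left, Phi_apply, Phi_apply, inner_Vmap, ← inner_Wmap]
  have h := ContinuousLinearMap.adjoint_inner_left
    (toEuclideanCLM (n := Fin k) (𝕜 := ℂ) M) (Wmap u v') (Wmap u v)
  rw [ContinuousLinearMap.isSelfAdjoint_iff'.mp hsa] at h
  exact h.symm

lemma norm_Phi_le {u : Fin k → H} (hu : Orthonormal ℂ u) (M : Matrix (Fin k) (Fin k) ℂ) :
    ‖Phi u M‖ ≤ opn M := by
  apply ContinuousLinearMap.opNorm_le_bound _ (norm_nonneg _)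
  intro v
  rw [Phi_apply, norm_Vmap_apply hu]
  calc _ ≤ ‖toEuclideanCLM (n := Fin k) (𝕜 := ℂ) M‖ * ‖Wmap u v‖ :=
        ContinuousLinearMap.le_opNorm _ _
    _ ≤ ‖toEuclideanCLM (n := Fin k) (𝕜 := ℂ) M‖ * ‖v‖ :=
        mul_le_mul_of_nonneg_left (norm_Wmap_apply_le hu v) (norm_nonneg _)

lemma opn_mat_le {u : Fin k → H} (hu : Orthonormal ℂ u) (x : H →L[ℂ] H) :
    opn (mat u x) ≤ ‖x‖ := by
  apply ContinuousLinearMap.opNorm_le_bound _ (norm_nonneg _)
  intro w
  rw [toCLM_mat]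
  calc _ ≤ ‖x (Vmap u w)‖ := norm_Wmap_apply_le hu _
    _ ≤ ‖x‖ * ‖Vmap u w‖ := x.le_opNorm _
    _ = ‖x‖ * ‖w‖ := by rw [norm_Vmap_apply hu]

lemma mat_Phi {u : Fin k → H} (hu : Orthonormal ℂ u) (M : Matrix (Fin k) (Fin k) ℂ) :
    mat u (Phi u M) = M := by
  have h : toEuclideanCLM (n := Fin k) (𝕜 := ℂ) (mat u (Phi u M))
      = toEuclideanCLM (n := Fin k) (𝕜 := ℂ) M := by
    ext1 w
    rw [toCLM_mat, Phi_apply, WV hu, WV hu]
  exact (toEuclideanCLM (n := Fin k) (𝕜 := ℂ)).injective h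

lemma mat_isHermitian (u : Fin k → H) {x : H →L[ℂ] H} (hx : IsSelfAdjoint x) :
    (mat u x).IsHermitian := by
  ext i j
  simp only [mat, conjTranspose_apply, of_apply]
  rw [RCLike.star_def, inner_conj_symm, sa_inner hx]

/-- the indicator diagonal matrix of a colour class -/
def ind {r : ℕ} (c : Fin k → Fin r) (s : Fin r) : Matrix (Fin k) (Fin k) ℂ :=
  diagonal (fun i => if c i = s then 1 else 0)

lemma ind_mul_ind {r : ℕ} (c : Fin k → Fin r) (s s' : Fin r) :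
    ind c s * ind c s' = if s = s' then ind c s else 0 := by
  unfold ind
  rw [diagonal_mul_diagonal]
  split_ifs with h
  · subst h
    congr 1
    ext i
    split_ifs <;> simp
  · rw [← diagonal_zero]
    congr 1
    ext i
    by_cases h1 : c i = s
    · have : ¬ c i = s' := fun h2 => h (h1 ▸ h2)
      simp only [this, if_false, mul_zero]
    · simp [h1]

lemma sum_ind {r : ℕ} (c : Fin k → Fin r) : ∑ s, ind c s = 1 := by
  ext i j
  simp only [ind, Matrix.sum_apply, diagonal_apply, one_apply]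
  by_cases h : i = j
  · simp [h]
  · simp [h]

lemma ind_isHermitian {r : ℕ} (c : Fin k → Fin r) (s : Fin r) : (ind c s).IsHermitian := by
  unfold ind
  apply isHermitian_diagonal_of_self_adjoint
  ext i
  simp only [Pi.star_apply]
  split_ifs <;> simp

lemma sum_ind_mul_ind {r : ℕ} (c : Fin k → Fin r) (X : Matrix (Fin k) (Fin k) ℂ) :
    ∑ s, ind c s * X * ind c s = Matrix.of (fun i j => if c i = c j then X i j else 0) := by
  ext i j
  simp only [ind, Matrix.sum_apply, diagonal_mul, mul_diagonal, of_apply]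
  by_cases h : c i = c j
  · rw [Finset.sum_eq_single (c i)]
    · simp [h]
    · intro s _ hs
      have : ¬ c i = s := fun h2 => hs h2.symm
      simp [this]
    · intro h2; exact absurd (Finset.mem_univ _) h2
  · rw [if_neg h]
    apply Finset.sum_eq_zero
    intro s _
    by_cases h1 : c i = s
    · have : ¬ c j = s := fun h2 => h (h1.trans h2.symm)
      simp [this]
    · simp [h1]

end Vale.Agent.Lib.P078
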