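import Vale.Agent.Lib.P078.Mixed.LowerAtoms

/-!
Assembly of the two-sided reduction for arbitrary MASAs of `B(H)`.
-/

namespace Vale.Agent.Lib.P078

open scoped InnerProductSpace
open Matrix

set_option linter.unusedSectionVars false

variable {H : Type*} [NormedAddCommGroup H] [InnerProductSpace ℂ H] [CompleteSpace H]
variable {A : StarSubalgebra ℂ (H →L[ℂ] H)}

/-- `A` has at least `k` minimal projections -/
def HasAtoms (A : StarSubalgebra ℂ (H →L[ℂ] H)) (k : ℕ) : Prop :=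
  ∃ a : Fin k → H →L[ℂ] H, (∀ i, IsAtomProj A (a i)) ∧ Function.Injective a

lemma hasAtoms_of_vecs (hA : IsMASA (fullAlgebra H) A) {k : ℕ} {u : Fin k → H}
    (hu : Orthonormal ℂ u) (hat : ∀ i, IsAtomVec A (u i)) : HasAtoms A k := by
  refine ⟨fun i => rk (u i), fun i => (hat i).isAtomProj hA, ?_⟩
  intro i j hij
  by_contra hne
  have h1 := DFunLike.congr_fun hij (u i)
  simp only [] at h1
  rw [rk_self (hu.1 i), rk_apply, hu.2 (Ne.symm hne), zero_smul] at h1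
  have h2 := hu.1 i
  rw [h1] at h2
  simp at h2

theorem allSoPavable_mixed (hA : IsMASA (fullAlgebra H) A) {ε : ℝ} {r₁ r₂ : ℕ}
    (hKS : ∀ k, HasAtoms A k → MatrixPavable k ε r₁) (hr : 1 < r₂ * ε) :
    AllSoPavable (fullAlgebra H) A ε (r₁ + r₂) := by
  intro x _ hx
  refine soPavable_mixed hA (fun k hk => ?_) hr hx
  obtain ⟨u, hu, hat⟩ := hk
  exact hKS k (hasAtoms_of_vecs hA hu hat)

theorem pavingNumber_le_matrix (hA : IsMASA (fullAlgebra H) A) {ε : ℝ} (hε : 0 < ε) :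
    pavingNumber (fullAlgebra H) A ε ≤ matrixPavingNumber ε + ((⌊1 / ε⌋₊ + 1 : ℕ) : ℕ∞) := by
  unfold matrixPavingNumber
  by_cases hne : {n : ℕ∞ | ∃ r : ℕ, 1 ≤ r ∧ (r : ℕ∞) = n ∧ ∀ k, MatrixPavable k ε r}.Nonempty
  · obtain ⟨r, hr1, hr, hKS⟩ := csInf_mem hne
    rw [← hr]
    unfold pavingNumber
    apply sInf_le
    refine ⟨r + (⌊1 / ε⌋₊ + 1), by omega, by push_cast; rfl,
      allSoPavable_mixed hA (fun k _ => hKS k) ?_⟩
    have h1 : 1 / ε < ((⌊1 / ε⌋₊ + 1 : ℕ) : ℝ) := by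
      push_cast
      exact Nat.lt_floor_add_one _
    rw [div_lt_iff₀ hε] at h1
    exact h1
  · rw [Set.not_nonempty_iff_eq_empty.mp hne, sInf_empty]
    simp

end Vale.Agent.Lib.P078
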