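import Vale.Agent.Lib.P078.Mixed.LowerDiffuse

/-!
Lower bound: so-paving over a MASA with `k` atoms implies paving of `k × k` matrices.
-/

namespace Vale.Agent.Lib.P078

open scoped InnerProductSpace
open Matrix

set_option linter.unusedSectionVars false

variable {H : Type*} [NormedAddCommGroup H] [InnerProductSpace ℂ H] [CompleteSpace H]
variable {A : StarSubalgebra ℂ (H →L[ℂ] H)} {k : ℕ}

lemma norm_sub_proj_Vmap_le {u : Fin k → H} {q : H →L[ℂ] H} {δ : ℝ}
    (hδ : ∀ i, ‖u i - q (u i)‖ ≤ δ) (w : EuclideanSpace ℂ (Fin k)) :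
    ‖Vmap u w - q (Vmap u w)‖ ≤ (k + 1) * δ * ‖w‖ := by
  have hδ0 : 0 ≤ k * δ := by
    rcases Nat.eq_zero_or_pos k with h | h
    · subst h; simp
    · have := (norm_nonneg _).trans (hδ ⟨0, h⟩)
      positivity
  have e1 : Vmap u w - q (Vmap u w) = ∑ i, w i • (u i - q (u i)) := by
    rw [Vmap_apply, map_sum, ← Finset.sum_sub_distrib]
    refine Finset.sum_congr rfl (fun i _ => ?_)
    rw [map_smul, smul_sub]
  rw [e1]
  calc ‖∑ i, w i • (u i - q (u i))‖ ≤ ∑ i, ‖w i • (u i - q (u i))‖ := norm_sum_le _ _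
    _ ≤ ∑ _i : Fin k, ‖w‖ * δ := by
        refine Finset.sum_le_sum (fun i _ => ?_)
        rw [norm_smul]
        exact mul_le_mul (PiLp.norm_apply_le w i) (hδ i) (norm_nonneg _) (norm_nonneg _)
    _ = k * δ * ‖w‖ := by simp; ring
    _ ≤ (k + 1) * δ * ‖w‖ := by
        rcases Nat.eq_zero_or_pos k with h | h
        · subst h
          have : w = 0 := Subsingleton.elim _ _
          simp [this]
        · have := (norm_nonneg _).trans (hδ ⟨0, h⟩)
          apply mul_le_mul_of_nonneg_right _ (norm_nonneg _)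
          nlinarith

lemma norm_Wmap_sub_proj_le {u : Fin k → H} {q : H →L[ℂ] H} (hq : IsStarProjection q) {δ : ℝ}
    (hδ0 : 0 ≤ δ) (hδ : ∀ i, ‖u i - q (u i)‖ ≤ δ) (y : H) :
    ‖Wmap u (y - q y)‖ ≤ (k + 1) * δ * ‖y‖ := by
  have h : ‖Wmap u (y - q y)‖ ^ 2 ≤ ((k + 1) * δ * ‖y‖) ^ 2 := by
    rw [EuclideanSpace.norm_sq_eq]
    simp only [Wmap_apply]
    calc ∑ i, ‖⟪u i, y - q y⟫_ℂ‖ ^ 2 ≤ ∑ _i : Fin k, (δ * ‖y‖) ^ 2 := by
          refine Finset.sum_le_sum (fun i _ => ?_)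
          apply pow_le_pow_left₀ (norm_nonneg _)
          have e1 : ⟪u i, y - q y⟫_ℂ = ⟪u i - q (u i), y⟫_ℂ := by
            rw [inner_sub_right, inner_sub_left, sa_inner hq.isSelfAdjoint]
          rw [e1]
          exact (norm_inner_le_norm _ _).trans (mul_le_mul_of_nonneg_right (hδ i) (norm_nonneg _))
      _ = k * (δ * ‖y‖) ^ 2 := by simp
      _ ≤ ((k + 1) * δ * ‖y‖) ^ 2 := by
          have hk : (0 : ℝ) ≤ k := Nat.cast_nonneg k
          have : ((k + 1) * δ * ‖y‖) ^ 2 = (k + 1) ^ 2 * (δ * ‖y‖) ^ 2 := by ring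
          rw [this]
          apply mul_le_mul_of_nonneg_right _ (by positivity)
          nlinarith
  exact (sq_le_sq₀ (norm_nonneg _) (by positivity)).mp h

lemma opn_mat_le_of_compress {u : Fin k → H} (hu : Orthonormal ℂ u) {T q : H →L[ℂ] H}
    (hq : IsStarProjection q) {C δ : ℝ} (hC : 0 ≤ C) (hδ0 : 0 ≤ δ) (hT : ‖q * T * q‖ ≤ C)
    (hδ : ∀ i, ‖u i - q (u i)‖ ≤ δ) :
    opn (mat u T) ≤ C + 2 * ((k + 1) * δ) * ‖T‖ := by
  apply ContinuousLinearMap.opNorm_le_bound _ (by positivity)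
  intro w
  rw [toCLM_mat]
  set v := Vmap u w with hv
  have hvn : ‖v‖ = ‖w‖ := norm_Vmap_apply hu w
  have hqv : ‖q v‖ ≤ ‖w‖ := (proj_norm_apply_le hq v).trans hvn.le
  have e1 : T v = (q * T * q) v + (T (q v) - q (T (q v))) + T (v - q v) := by
    simp only [mul_apply', map_sub]
    abel
  rw [e1, map_add, map_add]
  have b1 : ‖Wmap u ((q * T * q) v)‖ ≤ C * ‖w‖ := by
    calc _ ≤ ‖(q * T * q) v‖ := norm_Wmap_apply_le hu _
      _ ≤ ‖q * T * q‖ * ‖v‖ := ContinuousLinearMap.le_opNorm _ _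
      _ ≤ C * ‖w‖ := by rw [hvn]; exact mul_le_mul_of_nonneg_right hT (norm_nonneg _)
  have b2 : ‖Wmap u (T (q v) - q (T (q v)))‖ ≤ (k + 1) * δ * (‖T‖ * ‖w‖) := by
    calc _ ≤ (k + 1) * δ * ‖T (q v)‖ := norm_Wmap_sub_proj_le hq hδ0 hδ _
      _ ≤ (k + 1) * δ * (‖T‖ * ‖w‖) := by
          apply mul_le_mul_of_nonneg_left _ (by positivity)
          exact (T.le_opNorm _).trans (mul_le_mul_of_nonneg_left hqv (norm_nonneg _))
  have b3 : ‖Wmap u (T (v - q v))‖ ≤ ‖T‖ * ((k + 1) * δ * ‖w‖) := by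
    calc _ ≤ ‖T (v - q v)‖ := norm_Wmap_apply_le hu _
      _ ≤ ‖T‖ * ‖v - q v‖ := T.le_opNorm _
      _ ≤ ‖T‖ * ((k + 1) * δ * ‖w‖) :=
          mul_le_mul_of_nonneg_left (norm_sub_proj_Vmap_le hδ w) (norm_nonneg _)
  calc _ ≤ ‖Wmap u ((q * T * q) v)‖ + ‖Wmap u (T (q v) - q (T (q v)))‖
        + ‖Wmap u (T (v - q v))‖ := norm_add₃_le
    _ ≤ C * ‖w‖ + (k + 1) * δ * (‖T‖ * ‖w‖) + ‖T‖ * ((k + 1) * δ * ‖w‖) :=
        add_le_add (add_le_add b1 b2) b3
    _ = (C + 2 * ((k + 1) * δ) * ‖T‖) * ‖w‖ := by ring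

/-- a projection of `A` fixes or kills an atom vector -/
lemma IsAtomVec.proj_apply (hA : IsMASA (fullAlgebra H) A) {u : H} (hu : IsAtomVec A u)
    {p : H →L[ℂ] H} (hpA : p ∈ A) (hp : IsStarProjection p) : p u = 0 ∨ p u = u := by
  have hat := hu.isAtomProj hA
  have h1 : rk u * (rk u * p) = rk u * p := by rw [← mul_assoc, hat.2.1.isIdempotentElem.eq]
  have h2 : p u = (rk u * p) u := by
    rw [hA.comm hu.2 hpA, mul_apply', rk_self hu.1]
  rcases hat.2.2.2 (rk u * p) (A.mul_mem hu.2 hpA) (hat.2.1.mul hp (hA.comm hu.2 hpA)) h1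
    with h0 | h0
  · left; rw [h2, h0]; simp
  · right; rw [h2, h0, rk_self hu.1]

theorem matrixPavable_of_atomVecs (hA : IsMASA (fullAlgebra H) A) {u : Fin k → H}
    (hu : Orthonormal ℂ u) (hat : ∀ i, IsAtomVec A (u i)) {ε : ℝ} {r : ℕ}
    (hall : AllSoPavable (fullAlgebra H) A ε r) {ε' : ℝ} (hε : ε < ε') :
    MatrixPavable k ε' r := by
  classical
  intro X hX
  set x := Phi u X with hx
  have hxsa : IsSelfAdjoint x := Phi_isSelfAdjoint u hX
  have hxn : ‖x‖ = opn X := by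
    apply le_antisymm (norm_Phi_le hu X)
    have := opn_mat_le hu x
    rwa [hx, mat_Phi hu] at this
  set δ : ℝ := (ε' - ε) / (2 * (k + 1) * (r + 1)) with hδdef
  have hδ : 0 < δ := by
    have : 0 < ε' - ε := sub_pos.mpr hε
    positivity
  obtain ⟨p, a, q, hp, haA, hasa, han, _, hq, hF, hnorm⟩ :=
    hall x (mem_fullAlgebra _) hxsa (Finset.univ.image u) δ hδ
  have hpP : POU p := hp.toPOU
  -- the colouring
  have hcol : ∀ i, ∃ s, p s (u i) = u i := by
    intro i
    by_contra hcon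
    push Not at hcon
    have hz : ∀ s, p s (u i) = 0 := fun s =>
      ((hat i).proj_apply hA (hp.mem s) (hp.proj s)).resolve_right (hcon s)
    have := hpP.sum_apply (u i)
    simp only [hz, Finset.sum_const_zero] at this
    have h1 := hu.1 i
    rw [← this] at h1
    simp at h1
  choose c hc using hcol
  have hpu : ∀ s i, p s (u i) = if c i = s then u i else 0 := by
    intro s i
    split_ifs with h
    · rw [← h]; exact hc i
    · rw [← hc i, hpP.orth_apply (Ne.symm h)]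
  -- the diagonal
  let d : Fin k → ℝ := fun i => (⟪u i, a (u i)⟫_ℂ).re
  have hau : ∀ i, a (u i) = ((d i : ℝ) : ℂ) • u i := by
    intro i
    rw [(hat i).apply_eq hA haA]
    congr 1
    exact sa_inner_real hasa (u i)
  have hdn : ∀ i, |d i| ≤ opn X := by
    intro i
    rw [← hxn]
    calc |d i| ≤ ‖u i‖ * ‖a (u i)‖ := abs_re_inner_le _ _
      _ ≤ ‖u i‖ * (‖a‖ * ‖u i‖) := mul_le_mul_of_nonneg_left (a.le_opNorm _) (norm_nonneg _)
      _ = ‖a‖ := by rw [hu.1 i]; ring
      _ ≤ ‖x‖ := han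
  refine ⟨c, d, hdn, ?_⟩
  set T := pinching p x - a with hT
  have hmat : mat u T = Matrix.of (fun i j => if c i = c j then X i j else 0)
      - diagonal (fun i => ((d i : ℝ) : ℂ)) := by
    ext i j
    have hXij : ⟪u i, x (u j)⟫_ℂ = X i j := by
      have := congrFun (congrFun (mat_Phi hu X) i) j
      simpa [mat] using this
    simp only [mat, of_apply, Matrix.sub_apply, hT, _root_.sub_apply, inner_sub_right, pinching,
      _root_.sum_apply, mul_apply', inner_sum]
    congr 1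
    · have h1 : ∀ s, ⟪u i, p s (x (p s (u j)))⟫_ℂ
          = if c i = s then (if c j = s then X i j else 0) else 0 := by
        intro s
        rw [← hpP.inner_left, hpu s i, hpu s j]
        split_ifs <;> simp [hXij]
      simp only [h1]
      rw [Finset.sum_ite_eq]
      simp only [Finset.mem_univ, if_true]
      by_cases h : c i = c j
      · simp [h]
      · have h' : ¬ c j = c i := fun h2 => h h2.symm
        simp [h, h']
    · rw [hau j, inner_smul_right, orthonormal_iff_ite.mp hu i j, diagonal_apply]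
      by_cases h : i = j
      · subst h; simp
      · simp [h]
  rw [← hmat]
  have hTn : ‖T‖ ≤ (r + 1) * ‖x‖ := by
    calc ‖T‖ ≤ ‖pinching p x‖ + ‖a‖ := norm_sub_le _ _
      _ ≤ r * ‖x‖ + ‖x‖ := add_le_add (norm_pinching_le hpP _) han
      _ = (r + 1) * ‖x‖ := by ring
  have hδu : ∀ i, ‖u i - q (u i)‖ ≤ δ := by
    intro i
    have := hF (u i) (Finset.mem_image_of_mem _ (Finset.mem_univ i))
    simpa using this.le
  have hC : 0 ≤ ε * ‖x‖ := (norm_nonneg _).trans hnorm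
  have hmain := opn_mat_le_of_compress hu hq hC hδ.le hnorm hδu
  calc opn (mat u T) ≤ ε * ‖x‖ + 2 * ((k + 1) * δ) * ‖T‖ := hmain
    _ ≤ ε * ‖x‖ + 2 * ((k + 1) * δ) * ((r + 1) * ‖x‖) := by
        apply add_le_add le_rfl
        exact mul_le_mul_of_nonneg_left hTn (by positivity)
    _ = ε' * opn X := by
        rw [hxn, hδdef]
        field_simp
        ring

lemma rk_smul {c : ℂ} (hc : ‖c‖ = 1) (u : H) : rk (c • u) = rk u := by
  ext v
  rw [rk_apply, rk_apply, inner_smul_left, smul_smul, mul_assoc, mul_comm _ c, ← mul_assoc,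
    mul_comm _ c, Complex.mul_conj, Complex.normSq_eq_norm_sq, hc]
  simp

/-- pairwise distinct minimal projections give an orthonormal system of atom vectors -/
lemma exists_vecs_of_atoms (hA : IsMASA (fullAlgebra H) A) {a : Fin k → H →L[ℂ] H}
    (hat : ∀ i, IsAtomProj A (a i)) (hinj : Function.Injective a) :
    ∃ u : Fin k → H, Orthonormal ℂ u ∧ ∀ i, IsAtomVec A (u i) := by
  have h := fun i => (hat i).exists_vec hA
  choose u hu hau using h
  refine ⟨u, ⟨fun i => (hu i).1, ?_⟩, hu⟩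
  intro i j hij
  rcases (hu i).orth_or hA (hu j) with h0 | h0
  · exact h0
  · exfalso
    obtain ⟨c, hc⟩ := Submodule.mem_span_singleton.mp h0
    have hc1 : ‖c‖ = 1 := by
      have := (hu j).1
      rw [← hc, norm_smul, (hu i).1, mul_one] at this
      exact this
    apply hij
    apply hinj
    rw [hau i, hau j, ← hc, rk_smul hc1]

theorem matrixPavable_of_atoms (hA : IsMASA (fullAlgebra H) A) {a : Fin k → H →L[ℂ] H}
    (hat : ∀ i, IsAtomProj A (a i)) (hinj : Function.Injective a) {ε : ℝ} {r : ℕ}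
    (hall : AllSoPavable (fullAlgebra H) A ε r) {ε' : ℝ} (hε : ε < ε') :
    MatrixPavable k ε' r := by
  obtain ⟨u, hu, hv⟩ := exists_vecs_of_atoms hA hat hinj
  exact matrixPavable_of_atomVecs hA hu hv hall hε

end Vale.Agent.Lib.P078
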