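import Vale.Agent.Lib.P078.Mixed.UpperMixed

/-!
Lower bounds for an arbitrary MASA of `B(H)`.
-/

namespace Vale.Agent.Lib.P078

open scoped InnerProductSpace
open Matrix

set_option linter.unusedSectionVars false

variable {H : Type*} [NormedAddCommGroup H] [InnerProductSpace ℂ H] [CompleteSpace H]

theorem not_soPavable_reflection' {A : StarSubalgebra ℂ (H →L[ℂ] H)}
    (hAc : ∀ a ∈ A, ∀ b ∈ A, a * b = b * a) {ζ : H} (hζ : ‖ζ‖ = 1)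
    (hsp : ∀ τ : ℝ, 0 < τ → ∃ (L : ℕ) (f : Fin L → H →L[ℂ] H), (∀ l, f l ∈ A) ∧ POU f ∧
      ∀ l, ‖f l ζ‖ ≤ τ)
    {ε : ℝ} {r : ℕ} (hr1 : 1 ≤ r) (hε : 0 ≤ ε) (hr : r * ε < 1) :
    ¬ SoPavable (fullAlgebra H) A (reflection ζ) ε r := by
  classical
  intro hpav
  have hrpos : (0 : ℝ) < r := by exact_mod_cast hr1
  set θ : ℝ := 1 / r - ε with hθ
  have hθpos : 0 < θ := by
    rw [hθ, sub_pos, lt_div_iff₀ hrpos]; linarith
  set τ : ℝ := min 1 (θ / 4) with hτ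
  have hτpos : 0 < τ := lt_min one_pos (by positivity)
  have hτsq : τ ^ 2 ≤ θ / 4 := by
    have h1 : τ ≤ 1 := min_le_left _ _
    have h2 : τ ≤ θ / 4 := min_le_right _ _
    nlinarith
  obtain ⟨L, f, hfS, hf, hsmall⟩ := hsp τ hτpos
  set δ : ℝ := θ / (4 * ((r + 1) * (L + 1))) with hδ
  have hδpos : 0 < δ := by positivity
  obtain ⟨p, a, q, hp, haA, hasa, hanorm, _, hq, hF, hnorm⟩ :=
    hpav (insert ζ (Finset.univ.image (fun l => f l ζ))) δ hδpos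
  have hpP : POU p := hp.toPOU
  have hx1 : ‖reflection ζ‖ ≤ 1 := reflection_norm_le hζ
  set T : H →L[ℂ] H := pinching p (reflection ζ) - a with hT
  have hTn : ‖T‖ ≤ r + 1 := by
    calc ‖T‖ ≤ ‖pinching p (reflection ζ)‖ + ‖a‖ := norm_sub_le _ _
      _ ≤ r * ‖reflection ζ‖ + ‖reflection ζ‖ := add_le_add (norm_pinching_le hpP _) hanorm
      _ ≤ r * 1 + 1 := add_le_add (mul_le_mul_of_nonneg_left hx1 hrpos.le) hx1
      _ = r + 1 := by ring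
  have hcomp : ‖q * T * q‖ ≤ ε :=
    hnorm.trans (by nlinarith [norm_nonneg (reflection ζ)])
  have hQ : ∀ v : H, (⟪v, T v⟫_ℂ).re
      = 2 * ∑ i, ‖⟪p i ζ, v⟫_ℂ‖ ^ 2 - ‖v‖ ^ 2 - (⟪v, a v⟫_ℂ).re := by
    intro v
    rw [hT, _root_.sub_apply, inner_sub_right, Complex.sub_re,
      re_inner_pinching_reflection hpP]
  have hbound : ∀ v ∈ insert ζ (Finset.univ.image (fun l => f l ζ)), ‖v‖ ≤ 1 →
      |(⟪v, T v⟫_ℂ).re| ≤ ε * ‖v‖ ^ 2 + 2 * δ * (r + 1) := by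
    intro v hv hv1
    have h := abs_re_inner_le_of_compress hq hcomp (hF v hv)
    have h2 : 2 * δ * ‖T‖ * ‖v‖ ≤ 2 * δ * (r + 1) * 1 := by
      apply mul_le_mul _ hv1 (norm_nonneg _) (by positivity)
      exact mul_le_mul_of_nonneg_left hTn (by positivity)
    linarith
  -- the vector ζ
  have hζb := hbound ζ (by simp) hζ.le
  rw [hζ] at hζb
  -- the pieces
  have hpieces : ∀ l, |(⟪f l ζ, T (f l ζ)⟫_ℂ).re| ≤ ε * ‖f l ζ‖ ^ 2 + 2 * δ * (r + 1) := by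
    intro l
    apply hbound
    · apply Finset.mem_insert_of_mem
      exact Finset.mem_image_of_mem _ (Finset.mem_univ l)
    · exact (hf.norm_apply_le l ζ).trans hζ.le
  have hsumn : ∑ l, ‖f l ζ‖ ^ 2 = 1 := by rw [hf.sum_norm_sq, hζ]; norm_num
  -- commutation
  have hcomm_a : ∀ l, a (f l ζ) = f l (a ζ) := by
    intro l
    have := congrArg (fun R : H →L[ℂ] H => R ζ) (hAc a haA (f l) (hfS l))
    simpa [mul_apply_eq_comp] using this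
  have hcomm_p : ∀ i l, p i (f l ζ) = f l (p i ζ) := by
    intro i l
    have := congrArg (fun R : H →L[ℂ] H => R ζ) (hAc (p i) (hp.mem i) (f l) (hfS l))
    simpa [mul_apply_eq_comp] using this
  have hsuma : ∑ l, (⟪f l ζ, a (f l ζ)⟫_ℂ).re = (⟪ζ, a ζ⟫_ℂ).re := by
    have h1 : ∀ l, ⟪f l ζ, a (f l ζ)⟫_ℂ = ⟪f l ζ, a ζ⟫_ℂ := by
      intro l
      rw [hcomm_a, ← hf.inner_left, hf.idem]
    simp only [h1]
    rw [← Complex.re_sum, ← sum_inner, hf.sum_apply]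
  -- small cross terms
  have hcross : ∀ l, ∑ i, ‖⟪p i ζ, f l ζ⟫_ℂ‖ ^ 2 ≤ τ ^ 2 * ‖f l ζ‖ ^ 2 := by
    intro l
    have h1 : ∀ i, ‖⟪p i ζ, f l ζ⟫_ℂ‖ ^ 2 ≤ ‖p i (f l ζ)‖ ^ 2 * ‖f l ζ‖ ^ 2 := by
      intro i
      have : ⟪p i ζ, f l ζ⟫_ℂ = ⟪p i (f l ζ), f l ζ⟫_ℂ := by
        rw [hcomm_p, hf.inner_left, hf.idem]
      rw [this, ← mul_pow]
      exact pow_le_pow_left₀ (norm_nonneg _) (norm_inner_le_norm _ _) 2
    calc ∑ i, ‖⟪p i ζ, f l ζ⟫_ℂ‖ ^ 2 ≤ ∑ i, ‖p i (f l ζ)‖ ^ 2 * ‖f l ζ‖ ^ 2 :=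
          Finset.sum_le_sum (fun i _ => h1 i)
      _ = ‖f l ζ‖ ^ 2 * ‖f l ζ‖ ^ 2 := by rw [← Finset.sum_mul, hpP.sum_norm_sq]
      _ ≤ τ ^ 2 * ‖f l ζ‖ ^ 2 := by
          apply mul_le_mul_of_nonneg_right _ (by positivity)
          exact pow_le_pow_left₀ (norm_nonneg _) (hsmall l) 2
  have hcross_sum : ∑ l, ∑ i, ‖⟪p i ζ, f l ζ⟫_ℂ‖ ^ 2 ≤ τ ^ 2 := by
    calc ∑ l, ∑ i, ‖⟪p i ζ, f l ζ⟫_ℂ‖ ^ 2 ≤ ∑ l, τ ^ 2 * ‖f l ζ‖ ^ 2 :=
          Finset.sum_le_sum (fun l _ => hcross l)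
      _ = τ ^ 2 := by rw [← Finset.mul_sum, hsumn, mul_one]
  -- the main term
  have hmain : 1 / (r : ℝ) ≤ ∑ i, ‖⟪p i ζ, ζ⟫_ℂ‖ ^ 2 := by
    have h1 : ∀ i, ‖⟪p i ζ, ζ⟫_ℂ‖ = ‖p i ζ‖ ^ 2 := by
      intro i
      have : ⟪p i ζ, ζ⟫_ℂ = ⟪p i ζ, p i ζ⟫_ℂ := by
        conv_lhs => rw [← hpP.idem i ζ, hpP.inner_left]
      rw [this, inner_self_eq_norm_sq_to_K]
      simp
    simp only [h1]
    have h2 : ∑ i, ‖p i ζ‖ ^ 2 = 1 := by rw [hpP.sum_norm_sq, hζ]; norm_num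
    have h3 := sq_sum_le_card_mul_sum_sq (s := (Finset.univ : Finset (Fin r)))
      (f := fun i => ‖p i ζ‖ ^ 2)
    rw [h2] at h3
    simp only [Finset.card_univ, Fintype.card_fin] at h3
    rw [div_le_iff₀ hrpos]
    linarith
  -- combine
  have hid : 2 * ∑ i, ‖⟪p i ζ, ζ⟫_ℂ‖ ^ 2
      = (⟪ζ, T ζ⟫_ℂ).re - ∑ l, (⟪f l ζ, T (f l ζ)⟫_ℂ).re
        + 2 * ∑ l, ∑ i, ‖⟪p i ζ, f l ζ⟫_ℂ‖ ^ 2 := by
    simp only [hQ]
    rw [Finset.sum_sub_distrib, Finset.sum_sub_distrib, hsuma, hsumn, hζ, ← Finset.mul_sum]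
    ring
  have hsumpieces : ∑ l, |(⟪f l ζ, T (f l ζ)⟫_ℂ).re| ≤ ε + 2 * δ * (r + 1) * L := by
    calc ∑ l, |(⟪f l ζ, T (f l ζ)⟫_ℂ).re| ≤ ∑ l, (ε * ‖f l ζ‖ ^ 2 + 2 * δ * (r + 1)) :=
          Finset.sum_le_sum (fun l _ => hpieces l)
      _ = ε + 2 * δ * (r + 1) * L := by
          rw [Finset.sum_add_distrib, ← Finset.mul_sum, hsumn]
          simp
          ring
  have hneg : -∑ l, (⟪f l ζ, T (f l ζ)⟫_ℂ).re ≤ ∑ l, |(⟪f l ζ, T (f l ζ)⟫_ℂ).re| := by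
    rw [← Finset.sum_neg_distrib]
    exact Finset.sum_le_sum (fun l _ => neg_le_abs _)
  have hδeq : 2 * δ * (r + 1) * (L + 1) = θ / 2 := by
    rw [hδ]; field_simp; ring
  have h1 := le_abs_self (⟪ζ, T ζ⟫_ℂ).re
  have hfinal : 2 * (1 / (r : ℝ)) ≤ 2 * ε + θ := by
    nlinarith
  have : 1 / (r : ℝ) = θ + ε := by rw [hθ]; ring
  linarith


/-- if some nonzero projection of `A` has no minimal projection below it, then `r ε ≥ 1` is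
necessary for so-paving -/
theorem not_allSoPavable_of_diffuse_part {A : StarSubalgebra ℂ (H →L[ℂ] H)}
    (hA : IsMASA (fullAlgebra H) A) {p0 : H →L[ℂ] H} (hp0A : p0 ∈ A) (hp0 : IsStarProjection p0)
    (hne : p0 ≠ 0) (hno : ∀ p, IsAtomProj A p → p0 * p ≠ p)
    {ε : ℝ} {r : ℕ} (hr1 : 1 ≤ r) (hε : 0 ≤ ε) (hr : r * ε < 1) :
    ¬ AllSoPavable (fullAlgebra H) A ε r := by
  classical
  have hex : ∃ v, p0 v ≠ 0 := by
    by_contra hcon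
    push Not at hcon
    exact hne (by ext v; simp [hcon v])
  obtain ⟨v, hv⟩ := hex
  set ζ : H := ((‖p0 v‖⁻¹ : ℝ) : ℂ) • p0 v with hζdef
  have hζ : ‖ζ‖ = 1 := by
    rw [hζdef, norm_smul, Complex.norm_real, norm_inv, norm_norm,
      inv_mul_cancel₀ (norm_ne_zero_iff.mpr hv)]
  have hpζ : p0 ζ = ζ := by
    rw [hζdef, map_smul, proj_apply_apply hp0]
  have hkill : ∀ p, IsAtomProj A p → p ζ = 0 := by
    intro p hp
    have h1 : p * (p * p0) = p * p0 := by rw [← mul_assoc, hp.2.1.isIdempotentElem.eq]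
    rcases hp.2.2.2 (p * p0) (A.mul_mem hp.1 hp0A) (hp.2.1.mul hp0 (hA.comm hp.1 hp0A)) h1
      with h0 | h0
    · rw [← hpζ, ← mul_apply', h0]; simp
    · exfalso
      apply hno p hp
      rw [hA.comm hp0A hp.1, h0]
  intro hall
  refine not_soPavable_reflection' hA.2.1 hζ ?_ hr1 hε hr
    (hall _ (mem_fullAlgebra _) (reflection_isSelfAdjoint hζ))
  intro τ hτ
  obtain ⟨κ, _, f, hfA, hf, hsm⟩ := exists_small_of_atoms_kill hA hkill (η := τ ^ 2) (by positivity)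
  refine ⟨Fintype.card κ, fun l => f ((Fintype.equivFin κ).symm l), fun l => hfA _,
    hf.reindex _, fun l => ?_⟩
  exact (sq_le_sq₀ (norm_nonneg _) hτ.le).mp (hsm _)

end Vale.Agent.Lib.P078
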