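import Vale.Agent.Lib.P078.Mixed.Atom

/-!
Structure of a finite set of vectors relative to an arbitrary MASA of `B(H)`:
finitely many atoms plus a finely divisible orthonormal system in the diffuse part.
-/

namespace Vale.Agent.Lib.P078

open scoped InnerProductSpace

set_option linter.unusedSectionVars false

variable {H : Type*} [NormedAddCommGroup H] [InnerProductSpace ℂ H] [CompleteSpace H]
variable {A : StarSubalgebra ℂ (H →L[ℂ] H)}

lemma projOn_cons {k : ℕ} (t : H) (u : Fin k → H) (v : H) :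
    projOn (Fin.cons t u : Fin (k + 1) → H) v = ⟪t, v⟫_ℂ • t + projOn u v := by
  rw [projOn_apply, projOn_apply, Fin.sum_univ_succ]
  simp

lemma exists_orthonormal_atoms (hA : IsMASA (fullAlgebra H) A) (T : Finset H)
    (hT : ∀ t ∈ T, IsAtomVec A t) :
    ∃ (k : ℕ) (u : Fin k → H), Orthonormal ℂ u ∧ (∀ i, IsAtomVec A (u i)) ∧
      ∀ t ∈ T, projOn u t = t := by
  classical
  induction T using Finset.induction_on with
  | empty =>
    exact ⟨0, fun i => i.elim0, ⟨fun i => i.elim0, fun i => i.elim0⟩, fun i => i.elim0, by simp⟩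
  | insert t0 T _ ih =>
    obtain ⟨k, u, hu, hat, hfix⟩ := ih (fun t ht => hT t (Finset.mem_insert_of_mem ht))
    have ht0 : IsAtomVec A t0 := hT t0 (Finset.mem_insert_self _ _)
    by_cases h : projOn u t0 = t0
    · refine ⟨k, u, hu, hat, ?_⟩
      intro t ht
      rcases Finset.mem_insert.mp ht with rfl | ht
      · exact h
      · exact hfix t ht
    · have horth : ∀ i, ⟪u i, t0⟫_ℂ = 0 := by
        intro i
        rcases (hat i).orth_or hA ht0 with h0 | h0
        · exact h0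
        · exfalso
          obtain ⟨c, hc⟩ := Submodule.mem_span_singleton.mp h0
          apply h
          rw [← hc, map_smul, projOn_basis hu]
      have horth' : ∀ i, ⟪t0, u i⟫_ℂ = 0 := by
        intro i
        rw [← inner_conj_symm, horth i]; simp
      refine ⟨k + 1, Fin.cons t0 u, ⟨?_, ?_⟩, ?_, ?_⟩
      · intro i
        refine Fin.cases ?_ (fun i => ?_) i
        · simpa using ht0.1
        · simpa using hu.1 i
      · intro i j hij
        induction i using Fin.cases with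
        | zero =>
          induction j using Fin.cases with
          | zero => exact absurd rfl hij
          | succ j => simpa using horth' j
        | succ i =>
          induction j using Fin.cases with
          | zero => simpa using horth i
          | succ j =>
            have : i ≠ j := fun h2 => hij (by rw [h2])
            simpa using hu.2 this
      · intro i
        refine Fin.cases ?_ (fun i => ?_) i
        · simpa using ht0
        · simpa using hat i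
      · intro t ht
        rw [projOn_cons]
        rcases Finset.mem_insert.mp ht with rfl | ht
        · rw [projOn_apply]
          simp only [horth, zero_smul, Finset.sum_const_zero, add_zero]
          rw [inner_self_eq_norm_sq_to_K, ht0.1]; simp
        · have h1 : ⟪t0, t⟫_ℂ = 0 := by
            rw [← hfix t ht, projOn_apply, inner_sum]
            simp [inner_smul_right, horth']
          rw [h1, hfix t ht]; simp

lemma exists_atoms_approx (hA : IsMASA (fullAlgebra H) A) (W : Finset H)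
    (hW : ∀ w ∈ W, w ∈ atomSub A) {δ : ℝ} (hδ : 0 < δ) :
    ∃ (k : ℕ) (u : Fin k → H), Orthonormal ℂ u ∧ (∀ i, IsAtomVec A (u i)) ∧
      ∀ w ∈ W, ‖w - projOn u w‖ < δ := by
  classical
  have h1 : ∀ w ∈ W, ∃ y ∈ Submodule.span ℂ {u | IsAtomVec A u}, ‖w - y‖ < δ := by
    intro w hw
    have hw' : w ∈ closure (Submodule.span ℂ {u | IsAtomVec A u} : Set H) := hW w hw
    obtain ⟨y, hy, hd⟩ := Metric.mem_closure_iff.mp hw' δ hδ
    exact ⟨y, hy, by rwa [dist_eq_norm] at hd⟩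
  choose! y hy hyδ using h1
  have h2 : ∀ w ∈ W, ∃ T : Finset H, (T : Set H) ⊆ {u | IsAtomVec A u} ∧
      y w ∈ Submodule.span ℂ (T : Set H) :=
    fun w hw => Submodule.mem_span_finite_of_mem_span (hy w hw)
  choose! T hT hyT using h2
  obtain ⟨k, u, hu, hat, hfix⟩ := exists_orthonormal_atoms hA (W.biUnion T) (by
    intro t ht
    obtain ⟨w, hw, ht⟩ := Finset.mem_biUnion.mp ht
    exact hT w hw ht)
  refine ⟨k, u, hu, hat, ?_⟩
  intro w hw
  have hfy' : ∀ v ∈ Submodule.span ℂ (T w : Set H), projOn u v = v := by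
    intro v hv
    induction hv using Submodule.span_induction with
    | mem t ht => exact hfix t (Finset.mem_biUnion.mpr ⟨w, hw, ht⟩)
    | zero => simp
    | add s t _ _ hs ht => rw [map_add, hs, ht]
    | smul c s _ hs => rw [map_smul, hs]
  have hfy : projOn u (y w) = y w := hfy' _ (hyT w hw)
  have e1 : w - projOn u w = (1 - projOn u) (w - y w) := by
    simp only [sub_apply, one_apply_eq_self, map_sub, hfy]
    abel
  rw [e1]
  exact lt_of_le_of_lt (proj_norm_apply_le (projOn_isStarProjection hu).one_sub _) (hyδ w hw)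

lemma apply_mem_cyc (hA : IsMASA (fullAlgebra H) A) {b : H →L[ℂ] H} (hb : b ∈ A) {ζ ξ : H}
    (hξ : ξ ∈ cyc A ζ) : b ξ ∈ cyc A (b ζ) := by
  have hξ' : ξ ∈ closure (orbit A ζ : Set H) := hξ
  refine map_mem_closure b.continuous hξ' ?_
  rintro _ ⟨a, ha, rfl⟩
  exact ⟨a, ha, hA.comm_apply ha hb ζ⟩

/-- the diffuse data: an orthonormal system in a cyclic subspace of a vector that can be cut into
small pieces -/
theorem diffuse_data (hA : IsMASA (fullAlgebra H) A) {ζ : H}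
    (hsm : ∀ η : ℝ, 0 < η → ∃ (κ : Type) (_ : Fintype κ) (f : κ → H →L[ℂ] H), (∀ l, f l ∈ A) ∧
      POU f ∧ ∀ l, ‖f l ζ‖ ^ 2 ≤ η)
    (F : Finset H) (hF : ∀ ξ ∈ F, ξ ∈ cyc A ζ) {δ : ℝ} (hδ : 0 < δ) :
    ∃ (m : ℕ) (e : Fin m → H), Orthonormal ℂ e ∧ (∀ j, e j ∈ cyc A ζ) ∧
      (∀ ξ ∈ F, ‖ξ - projOn e ξ‖ < δ) ∧
      (m = 0 ∨ ∀ η : ℝ, 0 < η → ∃ (L : ℕ) (f : Fin L → H →L[ℂ] H) (π : Fin L → Fin m),
        FineData (projSet A) e η f π) := by
  classical
  have happ : ∀ ξ ∈ F, ∃ s ∈ Submodule.span ℂ (projSet A), ‖ξ - s ζ‖ < δ :=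
    fun ξ hξ => approx_vector hA (hF ξ hξ) hδ
  choose! s hs hsδ using happ
  have hfin : ∀ ξ ∈ F, ∃ T : Finset (H →L[ℂ] H), (T : Set (H →L[ℂ] H)) ⊆ projSet A ∧
      s ξ ∈ Submodule.span ℂ (T : Set (H →L[ℂ] H)) :=
    fun ξ hξ => Submodule.mem_span_finite_of_mem_span (hs ξ hξ)
  choose! T hT hsT using hfin
  obtain ⟨ι, _, g, hg, hgA, hspan⟩ := exists_atoms hA (F.biUnion T) (by
    intro p hp
    obtain ⟨ξ, hξ, hp⟩ := Finset.mem_biUnion.mp hp
    exact hT ξ hξ hp)
  have hsg : ∀ ξ ∈ F, s ξ ∈ Submodule.span ℂ (Set.range g) := by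
    intro ξ hξ
    have hle : Submodule.span ℂ (T ξ : Set (H →L[ℂ] H)) ≤ Submodule.span ℂ (Set.range g) := by
      rw [Submodule.span_le]
      intro p hp
      exact hspan p (Finset.mem_biUnion.mpr ⟨ξ, hξ, hp⟩)
    exact hle (hsT ξ hξ)
  -- the nonzero pieces
  let J := {j : ι // g j ζ ≠ 0}
  let σ : J ≃ Fin (Fintype.card J) := Fintype.equivFin J
  let e : Fin (Fintype.card J) → H := fun k => ((‖g (σ.symm k).1 ζ‖⁻¹ : ℝ) : ℂ) • g (σ.symm k).1 ζ
  have hnorm : ∀ k, ‖g (σ.symm k).1 ζ‖ ≠ 0 := fun k => norm_ne_zero_iff.mpr (σ.symm k).2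
  have he : Orthonormal ℂ e := by
    constructor
    · intro k
      show ‖((‖g (σ.symm k).1 ζ‖⁻¹ : ℝ) : ℂ) • g (σ.symm k).1 ζ‖ = 1
      rw [norm_smul, Complex.norm_real, norm_inv, norm_norm, inv_mul_cancel₀ (hnorm k)]
    · intro k k' hkk
      show ⟪((‖g (σ.symm k).1 ζ‖⁻¹ : ℝ) : ℂ) • g (σ.symm k).1 ζ,
        ((‖g (σ.symm k').1 ζ‖⁻¹ : ℝ) : ℂ) • g (σ.symm k').1 ζ⟫_ℂ = 0
      have hne : (σ.symm k).1 ≠ (σ.symm k').1 := by
        intro h
        exact hkk (σ.symm.injective (Subtype.ext h))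
      rw [inner_smul_left, inner_smul_right, hg.inner_left, hg.orth_apply hne]
      simp
  have hfix : ∀ j, projOn e (g j ζ) = g j ζ := by
    intro j
    by_cases hj : g j ζ = 0
    · rw [hj, map_zero]
    · have e1 : g j ζ = ((‖g j ζ‖ : ℝ) : ℂ) • e (σ ⟨j, hj⟩) := by
        show g j ζ = ((‖g j ζ‖ : ℝ) : ℂ) •
          (((‖g (σ.symm (σ ⟨j, hj⟩)).1 ζ‖⁻¹ : ℝ) : ℂ) • g (σ.symm (σ ⟨j, hj⟩)).1 ζ)
        rw [Equiv.symm_apply_apply, smul_smul, ← Complex.ofReal_mul,
          mul_inv_cancel₀ (norm_ne_zero_iff.mpr hj)]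
        simp
      rw [e1, map_smul, projOn_basis he]
  refine ⟨Fintype.card J, e, he, ?_, ?_, ?_⟩
  · intro k
    exact Submodule.smul_mem _ _ (orbit_le_cyc ζ (mem_orbit (hgA _)))
  · intro ξ hξ
    obtain ⟨t, ht⟩ := (Submodule.mem_span_range_iff_exists_fun ℂ).mp (hsg ξ hξ)
    have hfix2 : projOn e (s ξ ζ) = s ξ ζ := by
      rw [← ht]
      simp only [sum_apply, smul_apply, map_sum, map_smul, hfix]
    have e1 : ξ - projOn e ξ = (1 - projOn e) (ξ - s ξ ζ) := by
      simp only [sub_apply, one_apply_eq_self, map_sub, hfix2]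
      abel
    rw [e1]
    exact lt_of_le_of_lt (proj_norm_apply_le (projOn_isStarProjection he).one_sub _) (hsδ ξ hξ)
  · by_cases hJne : Nonempty J
    swap
    · left
      rw [Fintype.card_eq_zero_iff]
      exact not_nonempty_iff.mp hJne
    right
    intro η hη
    obtain ⟨j0, hj0⟩ := Finite.exists_min (fun j : J => ‖g j.1 ζ‖ ^ 2)
    set c := ‖g j0.1 ζ‖ ^ 2 with hc
    have hcpos : 0 < c := by
      have := norm_pos_iff.mpr j0.2
      positivity
    obtain ⟨κ, _, f, hfA, hf, hsmall⟩ := hsm (η * c) (by positivity)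
    have hh : POU (fun x : ι × κ => g x.1 * f x.2) :=
      hg.prod hf (fun l k => hA.comm (hgA l) (hfA k))
    let τ : Fin (Fintype.card (ι × κ)) ≃ ι × κ := (Fintype.equivFin (ι × κ)).symm
    let π : Fin (Fintype.card (ι × κ)) → Fin (Fintype.card J) := fun l =>
      if hx : g (τ l).1 ζ ≠ 0 then σ ⟨(τ l).1, hx⟩ else σ (Classical.choice hJne)
    have hval : ∀ (x : ι × κ) (k : Fin (Fintype.card J)),
        (g x.1 * f x.2) (e k) = ((‖g (σ.symm k).1 ζ‖⁻¹ : ℝ) : ℂ) •
          g x.1 (g (σ.symm k).1 (f x.2 ζ)) := by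
      intro x k
      show (g x.1 * f x.2) (((‖g (σ.symm k).1 ζ‖⁻¹ : ℝ) : ℂ) • g (σ.symm k).1 ζ) = _
      rw [map_smul, mul_apply_eq_comp, hA.comm_apply (hfA x.2) (hgA _)]
    refine ⟨Fintype.card (ι × κ), fun l => g (τ l).1 * f (τ l).2, π, ?_, ?_, ?_, ?_⟩
    · intro l
      exact ⟨A.mul_mem (hgA _) (hfA _), hh.proj (τ l)⟩
    · exact hh.reindex τ
    · intro l k hlk
      rw [hval]
      have hne : (τ l).1 ≠ (σ.symm k).1 := by
        intro h
        apply hlk
        have hx : g (τ l).1 ζ ≠ 0 := by rw [h]; exact (σ.symm k).2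
        show (if hx : g (τ l).1 ζ ≠ 0 then σ ⟨(τ l).1, hx⟩ else σ (Classical.choice hJne)) = k
        rw [dif_pos hx]
        have : (⟨(τ l).1, hx⟩ : J) = σ.symm k := Subtype.ext h
        rw [this, Equiv.apply_symm_apply]
      rw [hg.orth_apply hne, smul_zero]
    · intro l
      rw [hval, norm_smul, Complex.norm_real, norm_inv, norm_norm, mul_pow]
      set k := π l
      have h1 : ‖g (τ l).1 (g (σ.symm k).1 (f (τ l).2 ζ))‖ ≤ ‖f (τ l).2 ζ‖ :=
        (hg.norm_apply_le _ _).trans (hg.norm_apply_le _ _)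
      have h2 : ‖g (τ l).1 (g (σ.symm k).1 (f (τ l).2 ζ))‖ ^ 2 ≤ η * c :=
        (pow_le_pow_left₀ (norm_nonneg _) h1 2).trans (hsmall _)
      have h3 : c ≤ ‖g (σ.symm k).1 ζ‖ ^ 2 := hj0 (σ.symm k)
      have h4 : 0 < ‖g (σ.symm k).1 ζ‖ ^ 2 := lt_of_lt_of_le hcpos h3
      rw [inv_pow, inv_mul_le_iff₀ h4]
      calc _ ≤ η * c := h2
        _ ≤ η * ‖g (σ.symm k).1 ζ‖ ^ 2 := mul_le_mul_of_nonneg_left h3 hη.le
        _ = ‖g (σ.symm k).1 ζ‖ ^ 2 * η := mul_comm _ _

/-- the structure theorem -/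
theorem mixed_data (hA : IsMASA (fullAlgebra H) A) (F : Finset H) {δ : ℝ} (hδ : 0 < δ) :
    ∃ (k : ℕ) (u : Fin k → H) (m : ℕ) (e : Fin m → H), Orthonormal ℂ u ∧
      (∀ i, IsAtomVec A (u i)) ∧ Orthonormal ℂ e ∧ (∀ i j, ⟪u i, e j⟫_ℂ = 0) ∧
      (∀ ξ ∈ F, ‖ξ - projOn u ξ - projOn e ξ‖ < δ) ∧
      (m = 0 ∨ ∀ η : ℝ, 0 < η → ∃ (L : ℕ) (f : Fin L → H →L[ℂ] H) (π : Fin L → Fin m),
        FineData (projSet A) e η f π) := by
  classical
  set z := za A with hz
  have hzA : z ∈ A := za_mem hA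
  have hzp : IsStarProjection z := za_proj
  have hzz : ∀ v, z (v - z v) = 0 := by
    intro v
    rw [map_sub, proj_apply_apply hzp, sub_self]
  obtain ⟨ζ0, hζ0⟩ := exists_cyclic hA (F.image (fun ξ => ξ - z ξ))
  set ζ := ζ0 - z ζ0 with hζ
  have hzζ : z ζ = 0 := hzz ζ0
  have hcyc : ∀ ξ ∈ F.image (fun ξ => ξ - z ξ), ξ ∈ cyc A ζ := by
    intro ξ' hξ'
    have h1 := apply_mem_cyc hA (A.sub_mem A.one_mem hzA) (hζ0 ξ' hξ')
    obtain ⟨ξ, _, rfl⟩ := Finset.mem_image.mp hξ'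
    simp only [sub_apply, one_apply_eq_self, hzz, sub_zero] at h1
    exact h1
  have hsm : ∀ η : ℝ, 0 < η → ∃ (κ : Type) (_ : Fintype κ) (f : κ → H →L[ℂ] H),
      (∀ l, f l ∈ A) ∧ POU f ∧ ∀ l, ‖f l ζ‖ ^ 2 ≤ η :=
    fun η hη => exists_small_of_atoms_kill hA (fun p hp => hp.apply_eq_zero hA hzζ) hη
  obtain ⟨m, e, he, hecyc, heapp, hfine⟩ := diffuse_data hA hsm _ hcyc (half_pos hδ)
  obtain ⟨k, u, hu, hat, huapp⟩ := exists_atoms_approx hA (F.image (fun ξ => z ξ))
    (by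
      intro w hw
      obtain ⟨ξ, _, rfl⟩ := Finset.mem_image.mp hw
      exact za_apply_mem ξ) (half_pos hδ)
  have hze : ∀ j, z (e j) = 0 := fun j => apply_eq_zero_of_mem_cyc hA hzA hzζ (hecyc j)
  refine ⟨k, u, m, e, hu, hat, he, fun i j => (hat i).inner_eq_zero (hze j), ?_, hfine⟩
  intro ξ hξ
  have h1 : projOn u (ξ - z ξ) = 0 := by
    rw [projOn_apply]
    simp [(hat _).inner_eq_zero (hzz ξ)]
  have h2 : projOn e (z ξ) = 0 := by
    rw [projOn_apply]
    have : ∀ j, ⟪e j, z ξ⟫_ℂ = 0 := by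
      intro j
      rw [← sa_inner hzp.isSelfAdjoint, hze j, inner_zero_left]
    simp [this]
  have e1 : ξ - projOn u ξ - projOn e ξ
      = (z ξ - projOn u (z ξ)) + ((ξ - z ξ) - projOn e (ξ - z ξ)) := by
    have h3 : projOn u ξ = projOn u (z ξ) := by
      have : projOn u ξ = projOn u (z ξ) + projOn u (ξ - z ξ) := by
        rw [← map_add]; congr 1; abel
      rw [this, h1, add_zero]
    have h4 : projOn e ξ = projOn e (ξ - z ξ) := by
      have : projOn e ξ = projOn e (z ξ) + projOn e (ξ - z ξ) := by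
        rw [← map_add]; congr 1; abel
      rw [this, h2, zero_add]
    rw [h3, h4]; abel
  rw [e1]
  calc _ ≤ ‖z ξ - projOn u (z ξ)‖ + ‖(ξ - z ξ) - projOn e (ξ - z ξ)‖ := norm_add_le _ _
    _ < δ / 2 + δ / 2 :=
        add_lt_add (huapp _ (Finset.mem_image_of_mem _ hξ)) (heapp _ (Finset.mem_image_of_mem _ hξ))
    _ = δ := by ring

end Vale.Agent.Lib.P078
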