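import Vale.Agent.Lib.P078.Mixed.Bridge

/-!
Upper bound for an arbitrary MASA of `B(H)`: matrix paving with `r₁` colours and `1 < r₂ ε`
give so-paving with `r₁ + r₂` pieces.
-/

namespace Vale.Agent.Lib.P078

open scoped InnerProductSpace
open Matrix

set_option linter.unusedSectionVars false

variable {H : Type*} [NormedAddCommGroup H] [InnerProductSpace ℂ H] [CompleteSpace H]
variable {A : StarSubalgebra ℂ (H →L[ℂ] H)}

section ring

variable {R : Type*} [Ring R] {qa qd b : R}

lemma ring_left (h1 : qa * qa = qa) (h2 : qd * qa = 0) (hc : qa * b = b * qa) :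
    (qa + qd) * (b * (1 - qa)) = qd * b := by
  have e1 : qa * b * qa = qa * b := by rw [hc, mul_assoc, h1]
  have e2 : qd * b * qa = 0 := by rw [mul_assoc, ← hc, ← mul_assoc, h2, zero_mul]
  calc (qa + qd) * (b * (1 - qa)) = qa * b - qa * b * qa + (qd * b - qd * b * qa) := by
        noncomm_ring
    _ = qd * b := by rw [e1, e2]; simp

lemma ring_right (h1 : qa * qa = qa) (h2 : qa * qd = 0) :
    (b * (1 - qa)) * (qa + qd) = b * qd := by
  have e1 : b * qa * qa = b * qa := by rw [mul_assoc, h1]
  have e2 : b * qa * qd = 0 := by rw [mul_assoc, h2, mul_zero]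
  calc (b * (1 - qa)) * (qa + qd) = b * qa - b * qa * qa + (b * qd - b * qa * qd) := by
        noncomm_ring
    _ = b * qd := by rw [e1, e2]; simp

end ring

lemma opn_diagonal_le {k : ℕ} (t : Fin k → ℂ) {C : ℝ} (hC : 0 ≤ C) (ht : ∀ i, ‖t i‖ ≤ C) :
    opn (diagonal t) ≤ C := by
  have h : opn (diagonal t) = ‖t‖ := Matrix.l2_opNorm_diagonal t
  rw [h]
  exact (pi_norm_le_iff_of_nonneg hC).mpr ht

lemma trivial_partition (A : StarSubalgebra ℂ (H →L[ℂ] H)) {r : ℕ} (hr : 0 < r) :
    IsPartition A (fun i : Fin r => if i = ⟨0, hr⟩ then (1 : H →L[ℂ] H) else 0) where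
  mem := by
    intro i
    split_ifs
    · exact A.one_mem
    · exact A.zero_mem
  proj := by
    intro i
    split_ifs
    · exact IsStarProjection.one _
    · exact IsStarProjection.zero _
  orth := by
    intro i j hij
    by_cases h1 : i = ⟨0, hr⟩
    · have : ¬ j = ⟨0, hr⟩ := fun h2 => hij (h1.trans h2.symm)
      simp [this]
    · simp [h1]
  sum_eq := by simp

lemma projOn_mul_projOn_of_orth {k m : ℕ} {u : Fin k → H} {e : Fin m → H}
    (h : ∀ i j, ⟪u i, e j⟫_ℂ = 0) : projOn u * projOn e = 0 := by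
  ext v
  rw [mul_apply', projOn_apply e, map_sum]
  simp [projOn_apply, h]

theorem soPavable_mixed (hA : IsMASA (fullAlgebra H) A) {ε : ℝ} {r₁ r₂ : ℕ}
    (hKS : ∀ k, (∃ u : Fin k → H, Orthonormal ℂ u ∧ ∀ i, IsAtomVec A (u i)) →
      MatrixPavable k ε r₁)
    (hr : 1 < r₂ * ε) {x : H →L[ℂ] H} (hx : IsSelfAdjoint x) :
    SoPavable (fullAlgebra H) A x ε (r₁ + r₂) := by
  intro F δ hδ
  obtain ⟨k, u, m, e, hu, hat, he, hue, happ, hfine⟩ := mixed_data hA F hδ
  have hr2 : 0 < r₂ := by
    rcases Nat.eq_zero_or_pos r₂ with h | h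
    · subst h; simp at hr; linarith
    · exact h
  have hε : 0 < ε := by
    have h1 : (0 : ℝ) < r₂ := by exact_mod_cast hr2
    by_contra hcon
    push Not at hcon
    nlinarith
  -- the diffuse block
  obtain ⟨G, ad, hG, hadA, hadsa, hadn, hdb⟩ : ∃ (G : Fin r₂ → H →L[ℂ] H) (ad : H →L[ℂ] H),
      IsPartition A G ∧ ad ∈ A ∧ IsSelfAdjoint ad ∧ ‖ad‖ ≤ ‖x‖ ∧
      ‖projOn e * (pinching G x - ad) * projOn e‖ ≤ ε * ‖x‖ := by
    rcases hfine with h0 | hfine
    · subst h0
      refine ⟨_, 0, trivial_partition A hr2, A.zero_mem, IsSelfAdjoint.zero _, by simp, ?_⟩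
      have : projOn e = 0 := by simp [projOn]
      rw [this]
      simp only [zero_mul, norm_zero]
      positivity
    · exact diffuse_block (S := projSet A) (fun p hp => hp.1) he hfine hx hr
  -- the atomic block
  obtain ⟨c, d, hd, hY⟩ := hKS k ⟨u, hu, hat⟩ (mat u x) (mat_isHermitian u hx)
  have hXn : opn (mat u x) ≤ ‖x‖ := opn_mat_le hu x
  set qa := projOn u with hqa_def
  set qd := projOn e with hqd_def
  have hqa : IsStarProjection qa := projOn_isStarProjection hu
  have hqd : IsStarProjection qd := projOn_isStarProjection he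
  have hqaA : qa ∈ A := by
    rw [hqa_def, projOn_eq_sum_rk]
    exact A.sum_mem (fun i _ => (hat i).2)
  have hqaqd : qa * qd = 0 := projOn_mul_projOn_of_orth hue
  have hqdqa : qd * qa = 0 := projOn_mul_projOn_of_orth (fun j i => by
    rw [← inner_conj_symm, hue i j]; simp)
  have hqaqa : qa * qa = qa := hqa.isIdempotentElem
  have hPhiA : ∀ t : Fin k → ℂ, Phi u (diagonal t) ∈ A := by
    intro t
    rw [Phi_diag]
    exact A.sum_mem (fun i _ => A.smul_mem (hat i).2 _)
  have hqaPhi : ∀ M, qa * Phi u M = Phi u M := by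
    intro M
    rw [hqa_def, ← Phi_one, Phi_mul hu, one_mul]
  have hPhiqa : ∀ M, Phi u M * qa = Phi u M := by
    intro M
    rw [hqa_def, ← Phi_one, Phi_mul hu, mul_one]
  have hqdPhi : ∀ M, qd * Phi u M = 0 := by
    intro M
    rw [← hqaPhi M, ← mul_assoc, hqdqa, zero_mul]
  have hPhiqd : ∀ M, Phi u M * qd = 0 := by
    intro M
    rw [← hPhiqa M, mul_assoc, hqaqd, mul_zero]
  have hqPhi : ∀ M, (qa + qd) * Phi u M = Phi u M := by
    intro M; rw [add_mul, hqaPhi, hqdPhi, add_zero]
  have hPhiq : ∀ M, Phi u M * (qa + qd) = Phi u M := by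
    intro M; rw [mul_add, hPhiqa, hPhiqd, add_zero]
  have h1qaPhi : ∀ M, (1 - qa) * Phi u M = 0 := by
    intro M; rw [sub_mul, one_mul, hqaPhi, sub_self]
  have hPhi1qa : ∀ M, Phi u M * (1 - qa) = 0 := by
    intro M; rw [mul_sub, mul_one, hPhiqa, sub_self]
  have h1qaA : 1 - qa ∈ A := A.sub_mem A.one_mem hqaA
  let Pa : Fin r₁ → H →L[ℂ] H := fun s => Phi u (ind c s)
  let da : H →L[ℂ] H := Phi u (diagonal (fun i => ((d i : ℝ) : ℂ)))
  let p : Fin (r₁ + r₂) → H →L[ℂ] H :=
    fun i => Fin.addCases (motive := fun _ => H →L[ℂ] H) (fun s => Pa s)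
      (fun s => G s * (1 - qa)) i
  have hpl : ∀ s, p (Fin.castAdd r₂ s) = Pa s := fun s => by simp [p]
  have hpr : ∀ s, p (Fin.natAdd r₁ s) = G s * (1 - qa) := fun s => by simp [p]
  have hPaproj : ∀ s, IsStarProjection (Pa s) := by
    intro s
    rw [isStarProjection_iff]
    refine ⟨?_, Phi_isSelfAdjoint u (ind_isHermitian c s)⟩
    show Phi u (ind c s) * Phi u (ind c s) = Phi u (ind c s)
    rw [Phi_mul hu, ind_mul_ind, if_pos rfl]
  have hGc : ∀ s, G s * (1 - qa) = (1 - qa) * G s := fun s => hA.comm (hG.mem s) h1qaA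
  have hpart : IsPartition A p := by
    refine ⟨?_, ?_, ?_, ?_⟩
    · intro i
      refine Fin.addCases (fun s => ?_) (fun s => ?_) i
      · rw [hpl]; exact hPhiA _
      · rw [hpr]; exact A.mul_mem (hG.mem s) h1qaA
    · intro i
      refine Fin.addCases (fun s => ?_) (fun s => ?_) i
      · rw [hpl]; exact hPaproj s
      · rw [hpr]; exact (hG.proj s).mul hqa.one_sub (hGc s)
    · intro i j
      refine Fin.addCases (fun s => ?_) (fun s => ?_) i <;>
        refine Fin.addCases (fun s' => ?_) (fun s' => ?_) j <;> intro hij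
      · rw [hpl, hpl]
        have hne : s ≠ s' := fun h => hij (by rw [h])
        show Phi u (ind c s) * Phi u (ind c s') = 0
        rw [Phi_mul hu, ind_mul_ind, if_neg hne, Phi_zero]
      · rw [hpl, hpr, hGc, ← mul_assoc]
        show Phi u (ind c s) * (1 - qa) * G s' = 0
        rw [hPhi1qa, zero_mul]
      · rw [hpl, hpr, mul_assoc]
        show G s * ((1 - qa) * Phi u (ind c s')) = 0
        rw [h1qaPhi, mul_zero]
      · rw [hpr, hpr]
        have hne : s ≠ s' := fun h => hij (by rw [h])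
        calc G s * (1 - qa) * (G s' * (1 - qa)) = G s * ((1 - qa) * G s') * (1 - qa) := by
              simp only [mul_assoc]
          _ = G s * (G s' * (1 - qa)) * (1 - qa) := by rw [hGc s']
          _ = (G s * G s') * (1 - qa) * (1 - qa) := by simp only [mul_assoc]
          _ = 0 := by rw [hG.orth s s' hne]; simp
    · rw [Fin.sum_univ_add]
      simp only [hpl, hpr]
      rw [← Finset.sum_mul, hG.sum_eq, one_mul]
      show ∑ s, Phi u (ind c s) + (1 - qa) = 1
      rw [← Phi_sum, sum_ind, Phi_one]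
      abel
  have hdaA : da ∈ A := hPhiA _
  have hdasa : IsSelfAdjoint da := by
    apply Phi_isSelfAdjoint
    apply isHermitian_diagonal_of_self_adjoint
    ext i
    simp
  have hdan : ‖da‖ ≤ ‖x‖ := by
    refine (norm_Phi_le hu _).trans (opn_diagonal_le _ (norm_nonneg _) (fun i => ?_))
    rw [Complex.norm_real, Real.norm_eq_abs]
    exact (hd i).trans hXn
  have hadc : ad * (1 - qa) = (1 - qa) * ad := hA.comm hadA h1qaA
  have hq : IsStarProjection (qa + qd) := hqa.add hqd hqaqd
  refine ⟨p, da + ad * (1 - qa), qa + qd, hpart, A.add_mem hdaA (A.mul_mem hadA h1qaA), ?_, ?_,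
    mem_fullAlgebra _, hq, ?_, ?_⟩
  · exact hdasa.add ((IsSelfAdjoint.commute_iff hadsa hqa.one_sub.isSelfAdjoint).mp hadc)
  · apply block_norm_le hqa hqa.one_sub hqa.mul_one_sub_self _ _ (norm_nonneg _) hdan
    · calc ‖ad * (1 - qa)‖ ≤ ‖ad‖ * ‖1 - qa‖ := norm_mul_le _ _
        _ ≤ ‖ad‖ * 1 :=
            mul_le_mul_of_nonneg_left (IsStarProjection.norm_le _ hqa.one_sub) (norm_nonneg _)
        _ ≤ ‖x‖ := by rw [mul_one]; exact hadn
    · show qa * Phi u _ * qa = Phi u _
      rw [hqaPhi, hPhiqa]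
    · calc (1 - qa) * (ad * (1 - qa)) * (1 - qa)
          = (1 - qa) * ad * ((1 - qa) * (1 - qa)) := by simp only [mul_assoc]
        _ = (1 - qa) * ad * (1 - qa) := by rw [hqa.one_sub.isIdempotentElem.eq]
        _ = ad * ((1 - qa) * (1 - qa)) := by rw [← hadc, mul_assoc]
        _ = ad * (1 - qa) := by rw [hqa.one_sub.isIdempotentElem.eq]
  · intro ξ hξ
    have := happ ξ hξ
    simpa [sub_sub] using this
  · -- the main estimate
    have hqac : ∀ b ∈ A, qa * b = b * qa := fun b hb => hA.comm hqaA hb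
    have hpin : (qa + qd) * pinching p x * (qa + qd)
        = Phi u (Matrix.of (fun i j => if c i = c j then mat u x i j else 0))
          + qd * pinching G x * qd := by
      have e1 : pinching p x = ∑ s, Pa s * x * Pa s
          + ∑ s, G s * (1 - qa) * x * (G s * (1 - qa)) := by
        unfold pinching
        rw [Fin.sum_univ_add]
        simp only [hpl, hpr]
      have e2 : (qa + qd) * (∑ s, Pa s * x * Pa s) * (qa + qd)
          = Phi u (Matrix.of (fun i j => if c i = c j then mat u x i j else 0)) := by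
        rw [Finset.mul_sum, Finset.sum_mul, ← sum_ind_mul_ind, Phi_sum]
        refine Finset.sum_congr rfl (fun s _ => ?_)
        show (qa + qd) * (Phi u (ind c s) * x * Phi u (ind c s)) * (qa + qd) = _
        rw [Phi_sandwich, hqPhi, hPhiq]
      have e3 : (qa + qd) * (∑ s, G s * (1 - qa) * x * (G s * (1 - qa))) * (qa + qd)
          = qd * pinching G x * qd := by
        unfold pinching
        rw [Finset.mul_sum, Finset.sum_mul, Finset.mul_sum, Finset.sum_mul]
        refine Finset.sum_congr rfl (fun s _ => ?_)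
        calc (qa + qd) * (G s * (1 - qa) * x * (G s * (1 - qa))) * (qa + qd)
            = ((qa + qd) * (G s * (1 - qa))) * x * ((G s * (1 - qa)) * (qa + qd)) := by
              simp only [mul_assoc]
          _ = (qd * G s) * x * (G s * qd) := by
              rw [ring_left hqaqa hqdqa (hqac _ (hG.mem s)), ring_right hqaqa hqaqd]
          _ = qd * (G s * x * G s) * qd := by simp only [mul_assoc]
      rw [e1, mul_add (qa + qd), add_mul _ _ (qa + qd), e2, e3]
    have hacomp : (qa + qd) * (da + ad * (1 - qa)) * (qa + qd) = da + qd * ad * qd := by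
      rw [mul_add (qa + qd), add_mul _ _ (qa + qd)]
      congr 1
      · show (qa + qd) * Phi u _ * (qa + qd) = Phi u _
        rw [hqPhi, hPhiq]
      · rw [ring_left hqaqa hqdqa (hqac _ hadA), mul_add (qd * ad)]
        have : qd * ad * qa = 0 := by
          rw [mul_assoc, ← hqac _ hadA, ← mul_assoc, hqdqa, zero_mul]
        rw [this, zero_add]
    have key : (qa + qd) * (pinching p x - (da + ad * (1 - qa))) * (qa + qd)
        = Phi u (Matrix.of (fun i j => if c i = c j then mat u x i j else 0)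
            - diagonal (fun i => ((d i : ℝ) : ℂ)))
          + qd * (pinching G x - ad) * qd := by
      rw [mul_sub (qa + qd), sub_mul _ _ (qa + qd), hpin, hacomp, Phi_sub, mul_sub qd,
        sub_mul _ _ qd]
      abel
    rw [key]
    apply block_norm_le hqa hqd hqaqd _ _ (by positivity) _ hdb
    · rw [hqaPhi, hPhiqa]
    · calc qd * (qd * (pinching G x - ad) * qd) * qd
          = (qd * qd) * (pinching G x - ad) * (qd * qd) := by simp only [mul_assoc]
        _ = _ := by rw [hqd.isIdempotentElem.eq]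
    · calc _ ≤ opn _ := norm_Phi_le hu _
        _ ≤ ε * opn (mat u x) := hY
        _ ≤ ε * ‖x‖ := mul_le_mul_of_nonneg_left hXn hε.le

end Vale.Agent.Lib.P078
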